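import Vale.Agent.Lib.P125B.Main

/-!
Consequences: the norm is a consistent family of genuine norms, and a chain which mixes has
bounded mean distance up to the mean displacement.
-/

namespace Vale.Agent.Lib.P125B

open Finset Matrix
open Vale.Agent.Lib.P125

/-- Adding a vanishing last coordinate does not change the norm. -/
lemma xNorm_succ_of_zero (N : ℕ) (g : ℕ → ℝ) (h : g N = 0) : xNorm (N + 1) g = xNorm N g := by
  have e : ∀ ψ, pair (N + 1) ψ g = pair N ψ g := fun ψ => by
    unfold pair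
    rw [Finset.sum_range_succ, h]
    simp
  unfold xNorm
  simp only [e]

/-- The norm is definite on the first `N` coordinates. -/
lemma eq_zero_of_xNorm (N : ℕ) (g : ℕ → ℝ) (h : xNorm N g = 0) : ∀ i < N, g i = 0 := by
  intro i hi
  have h1 := prefix_le_xNorm (N := N) (k := i) (by omega) g
  have h2 := prefix_le_xNorm (N := N) (k := i + 1) (by omega) g
  rw [h] at h1 h2
  have h3 : ∑ j ∈ range i, g j = 0 := by
    have : |∑ j ∈ range i, g j| ≤ 0 := by simpa using h1
    exact abs_nonpos_iff.mp this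
  have h4 : ∑ j ∈ range (i + 1), g j = 0 := by
    have : |∑ j ∈ range (i + 1), g j| ≤ 0 := by simpa using h2
    exact abs_nonpos_iff.mp this
  rw [Finset.sum_range_succ, h3, zero_add] at h4
  exact h4

variable {S : Type} [Fintype S] [DecidableEq S] (C : Chain S)

/-- The mean minus the stationary mean. -/
lemma mix_term (N s : ℕ) (F : S → ℕ → ℝ) {D : ℝ} (hD : 0 < D)
    (hdiam : ∀ z z', xNorm N (fun i => F z i - F z' i) ≤ D)
    (hmix : ∀ z, ∑ y, |(C.P ^ s) z y - C.pi y| ≤ 1 / D) (z z₀ : S) :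
    xNorm N (fun i => C.av s (fun w => F w i) z - ∑ y, C.pi y * F y i) ≤ 1 := by
  have e : ∀ i, C.av s (fun w => F w i) z - ∑ y, C.pi y * F y i
      = ∑ y, ((C.P ^ s) z y - C.pi y) * (F y i - F z₀ i) := by
    intro i
    have h0 : ∑ y, ((C.P ^ s) z y - C.pi y) * F z₀ i = 0 := by
      rw [← Finset.sum_mul, Finset.sum_sub_distrib, C.pow_sum, C.pi_sum]
      ring
    have hr : ∑ y, ((C.P ^ s) z y - C.pi y) * (F y i - F z₀ i)
        = ∑ y, (C.P ^ s) z y * F y i - ∑ y, C.pi y * F y i
          - ∑ y, ((C.P ^ s) z y - C.pi y) * F z₀ i := by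
      rw [← Finset.sum_sub_distrib, ← Finset.sum_sub_distrib]
      exact Finset.sum_congr rfl fun y _ => by ring
    rw [hr, h0, sub_zero]
    rfl
  simp only [e]
  calc xNorm N (fun i => ∑ y, ((C.P ^ s) z y - C.pi y) * (F y i - F z₀ i))
      ≤ ∑ y, |(C.P ^ s) z y - C.pi y| * xNorm N (fun i => F y i - F z₀ i) :=
        xNorm_sum_le Finset.univ N _ (fun y i => F y i - F z₀ i)
    _ ≤ ∑ y, |(C.P ^ s) z y - C.pi y| * D :=
        Finset.sum_le_sum fun y _ => mul_le_mul_of_nonneg_left (hdiam y z₀) (abs_nonneg _)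
    _ = (∑ y, |(C.P ^ s) z y - C.pi y|) * D := by rw [Finset.sum_mul]
    _ ≤ 1 / D * D := mul_le_mul_of_nonneg_right (hmix z) hD.le
    _ = 1 := by field_simp

/-- Pointwise bound for distances. -/
lemma dist_split (N s : ℕ) (F : S → ℕ → ℝ) {D : ℝ} (hD : 0 < D)
    (hdiam : ∀ z z', xNorm N (fun i => F z i - F z' i) ≤ D)
    (hmix : ∀ z, ∑ y, |(C.P ^ s) z y - C.pi y| ≤ 1 / D) (z z' : S) :
    xNorm N (fun i => F z i - F z' i)
      ≤ xNorm N (fun i => C.av s (fun w => F w i) z - F z i)
        + xNorm N (fun i => C.av s (fun w => F w i) z' - F z' i) + 2 := by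
  have e : (fun i => F z i - F z' i)
      = fun i => (-1 : ℝ) * (C.av s (fun w => F w i) z - F z i)
        + ((C.av s (fun w => F w i) z' - F z' i)
          + ((C.av s (fun w => F w i) z - ∑ y, C.pi y * F y i)
            + (-1 : ℝ) * (C.av s (fun w => F w i) z' - ∑ y, C.pi y * F y i))) := by
    funext i
    ring
  rw [e]
  have h1 := xNorm_add_le N (fun i => (-1 : ℝ) * (C.av s (fun w => F w i) z - F z i))
    (fun i => (C.av s (fun w => F w i) z' - F z' i)
          + ((C.av s (fun w => F w i) z - ∑ y, C.pi y * F y i)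
            + (-1 : ℝ) * (C.av s (fun w => F w i) z' - ∑ y, C.pi y * F y i)))
  have h2 := xNorm_add_le N (fun i => C.av s (fun w => F w i) z' - F z' i)
    (fun i => (C.av s (fun w => F w i) z - ∑ y, C.pi y * F y i)
            + (-1 : ℝ) * (C.av s (fun w => F w i) z' - ∑ y, C.pi y * F y i))
  have h3 := xNorm_add_le N (fun i => C.av s (fun w => F w i) z - ∑ y, C.pi y * F y i)
    (fun i => (-1 : ℝ) * (C.av s (fun w => F w i) z' - ∑ y, C.pi y * F y i))
  have h4 := xNorm_smul N (fun i => C.av s (fun w => F w i) z - F z i) (-1)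
  have h5 := xNorm_smul N (fun i => C.av s (fun w => F w i) z' - ∑ y, C.pi y * F y i) (-1)
  have h6 := mix_term C N s F hD hdiam hmix z z
  have h7 := mix_term C N s F hD hdiam hmix z' z
  simp only [abs_neg, abs_one, one_mul] at h4 h5
  linarith

/-- **Mean distance bound**: if the chain has mixed at time `s` to the precision `1 / D`, where
`D` bounds all the distances between the points `F z`, then the mean distance between two
independent stationary points is at most `2 (6420 s^(3/4) + 1)`. -/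
theorem mean_distance_bound (N : ℕ) (F : S → ℕ → ℝ)
    (hF0 : ∀ x y, C.P x y ≠ 0 → xNorm N (fun i => F y i - F x i) ≤ 1) (s : ℕ) (hs : 1 ≤ s)
    {D : ℝ} (hD : 0 < D)
    (hdiam : ∀ z z', xNorm N (fun i => F z i - F z' i) ≤ D)
    (hmix : ∀ z, ∑ y, |(C.P ^ s) z y - C.pi y| ≤ 1 / D) :
    ∑ z, ∑ z', C.pi z * C.pi z' * xNorm N (fun i => F z i - F z' i)
      ≤ 2 * (6420 * (s : ℝ) ^ (3 / 4 : ℝ) + 1) := by
  set A : S → ℝ := fun z => xNorm N (fun i => C.av s (fun w => F w i) z - F z i) with hA
  have hm : ∑ z, C.pi z * A z ≤ 6420 * (s : ℝ) ^ (3 / 4 : ℝ) := mean_bound C N F hF0 s hs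
  calc ∑ z, ∑ z', C.pi z * C.pi z' * xNorm N (fun i => F z i - F z' i)
      ≤ ∑ z, ∑ z', C.pi z * C.pi z' * (A z + A z' + 2) := by
        refine Finset.sum_le_sum fun z _ => Finset.sum_le_sum fun z' _ => ?_
        exact mul_le_mul_of_nonneg_left (dist_split C N s F hD hdiam hmix z z')
          (mul_nonneg (C.pi_nonneg z) (C.pi_nonneg z'))
    _ = 2 * ((∑ z, C.pi z * A z) + 1) := by
        have e : ∀ z z', C.pi z * C.pi z' * (A z + A z' + 2)
            = C.pi z' * (C.pi z * A z) + C.pi z * (C.pi z' * A z') + 2 * (C.pi z * C.pi z') := by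
          intro z z'; ring
        simp only [e, Finset.sum_add_distrib]
        simp only [← Finset.sum_mul, ← Finset.mul_sum, C.pi_sum, mul_one, one_mul]
        ring
    _ ≤ _ := by linarith

end Vale.Agent.Lib.P125B
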