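import Mathlib

/-!
A norm on finitely supported sequences through which the summing operator factors uniformly.

The unit ball of the dual is described explicitly: a test function is a sum
`∑ ρ, φ ρ / 2 ^ ρ`, where each `φ ρ` is a step function with values in `[-1,1]`, vanishing at `0`,
having at most `n ρ` jumps, and `∑ ρ, n ρ / 4 ^ ρ ≤ 1`.
-/

namespace Vale.Agent.Lib.P125B

open Finset

/-- A step function with values in `[-1,1]`, vanishing at `0`, with at most `n` jumps. -/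
def IsStep (n : ℕ) (ψ : ℕ → ℝ) : Prop :=
  ψ 0 = 0 ∧ (∀ i, |ψ i| ≤ 1) ∧ ∃ T : Finset ℕ, T.card ≤ n ∧ ∀ i, ψ (i + 1) ≠ ψ i → i ∈ T

/-- The test functions: sums `∑ ρ, φ ρ / 2 ^ ρ` with `φ ρ` a step function with at most `n ρ` jumps
and `∑ ρ, n ρ / 4 ^ ρ ≤ 1`. -/
def InBall (ψ : ℕ → ℝ) : Prop :=
  ∃ (R : ℕ) (n : ℕ → ℕ) (φ : ℕ → ℕ → ℝ),
    (∀ ρ ∈ range R, IsStep (n ρ) (φ ρ)) ∧
    ∑ ρ ∈ range R, (n ρ : ℝ) / 4 ^ ρ ≤ 1 ∧
    ∀ i, ψ i = ∑ ρ ∈ range R, φ ρ i / 2 ^ ρ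

/-- The pairing of a test function with a vector `g = (g 0, ..., g (N-1))`: the coordinate `g i`
is paired with `ψ (i+1)`. -/
def pair (N : ℕ) (ψ g : ℕ → ℝ) : ℝ := ∑ i ∈ range N, ψ (i + 1) * g i

/-- The norm of `g = (g 0, ..., g (N-1))`: the largest pairing with a test function. -/
noncomputable def xNorm (N : ℕ) (g : ℕ → ℝ) : ℝ :=
  sSup {c | ∃ ψ, InBall ψ ∧ c = pair N ψ g}

end Vale.Agent.Lib.P125B
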