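import Vale.Agent.Lib.P125B.Pairing
import Vale.Agent.Lib.P125.Budget

/-!
Energy estimates along a reversible chain for the partial Green operator.
-/

namespace Vale.Agent.Lib.P125B

open Finset Matrix
open Vale.Agent.Lib.P125

variable {S : Type} [Fintype S] [DecidableEq S] (C : Chain S)

/-- The partial Green operator `∑ r < s, P ^ r`. -/
noncomputable def Gr (s : ℕ) (a : S → ℝ) (x : S) : ℝ := ∑ r ∈ range s, C.av r a x

lemma av_abs_le (r : ℕ) (a : S → ℝ) (x : S) : |C.av r a x| ≤ C.av r (fun w => |a w|) x := by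
  unfold Chain.av
  calc |∑ y, (C.P ^ r) x y * a y| ≤ ∑ y, |(C.P ^ r) x y * a y| := Finset.abs_sum_le_sum_abs _ _
    _ = ∑ y, (C.P ^ r) x y * |a y| := by
        refine Finset.sum_congr rfl fun y _ => ?_
        rw [abs_mul, abs_of_nonneg (C.pow_nonneg' r x y)]

lemma av_bound {a : S → ℝ} {A : ℝ} (ha : ∀ w, |a w| ≤ A) (r : ℕ) (x : S) : |C.av r a x| ≤ A := by
  have h1 := av_abs_le C r a x
  have h2 : C.av r (fun w => |a w|) x ≤ C.av r (fun _ => A) x := C.av_mono r ha x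
  rw [C.av_const] at h2
  linarith

lemma Gr_bound {a : S → ℝ} {A : ℝ} (ha : ∀ w, |a w| ≤ A) (s : ℕ) (x : S) :
    |Gr C s a x| ≤ s * A := by
  unfold Gr
  calc |∑ r ∈ range s, C.av r a x| ≤ ∑ r ∈ range s, |C.av r a x| := Finset.abs_sum_le_sum_abs _ _
    _ ≤ ∑ _r ∈ range s, A := Finset.sum_le_sum fun r _ => av_bound C ha r x
    _ = s * A := by rw [Finset.sum_const, Finset.card_range, nsmul_eq_mul]

lemma Gr_abs_le (s : ℕ) (a : S → ℝ) (x : S) : |Gr C s a x| ≤ Gr C s (fun w => |a w|) x := by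
  unfold Gr
  calc |∑ r ∈ range s, C.av r a x| ≤ ∑ r ∈ range s, |C.av r a x| := Finset.abs_sum_le_sum_abs _ _
    _ ≤ _ := Finset.sum_le_sum fun r _ => av_abs_le C r a x

lemma Gr_nonneg {b : S → ℝ} (hb : ∀ w, 0 ≤ b w) (s : ℕ) (x : S) : 0 ≤ Gr C s b x :=
  Finset.sum_nonneg fun r _ => C.av_nonneg r hb x

lemma av_sub (r : ℕ) (a b : S → ℝ) (x : S) :
    C.av r (fun w => a w - b w) x = C.av r a x - C.av r b x := by
  unfold Chain.av
  rw [← Finset.sum_sub_distrib]
  exact Finset.sum_congr rfl fun y _ => by ring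

lemma Gr_sub (s : ℕ) (a b : S → ℝ) (x : S) :
    Gr C s (fun w => a w - b w) x = Gr C s a x - Gr C s b x := by
  unfold Gr
  rw [← Finset.sum_sub_distrib]
  exact Finset.sum_congr rfl fun r _ => av_sub C r a b x

lemma av_one (a : S → ℝ) (x : S) : C.av 1 a x = ∑ y, C.P x y * a y := by
  simp [Chain.av]

lemma av_one_av (r : ℕ) (a : S → ℝ) (x : S) : C.av 1 (C.av r a) x = C.av (r + 1) a x := by
  rw [av_one, C.av_succ]

lemma sum_pi_av (r : ℕ) (a : S → ℝ) : ∑ x, C.pi x * C.av r a x = ∑ x, C.pi x * a x := by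
  have h := C.av_selfadj r (fun _ => 1) a
  simp only [mul_one, C.av_const] at h
  simpa using h

lemma sum_pi_Gr (s : ℕ) (b : S → ℝ) : ∑ x, C.pi x * Gr C s b x = s * ∑ x, C.pi x * b x := by
  unfold Gr
  simp only [Finset.mul_sum]
  rw [Finset.sum_comm]
  simp only [← Finset.mul_sum]
  simp only [sum_pi_av]
  rw [Finset.sum_const, Finset.card_range, nsmul_eq_mul]

/-- The Laplacian of the partial Green operator. -/
lemma lap_Gr (s : ℕ) (a : S → ℝ) (x : S) :
    C.av 1 (Gr C s a) x - Gr C s a x = C.av s a x - a x := by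
  have e : C.av 1 (Gr C s a) x = ∑ r ∈ range s, C.av (r + 1) a x := by
    rw [av_one]
    unfold Gr
    simp only [Finset.mul_sum]
    rw [Finset.sum_comm]
    refine Finset.sum_congr rfl fun r _ => ?_
    rw [← av_one_av, av_one]
  rw [e]
  unfold Gr
  rw [← Finset.sum_sub_distrib, Finset.sum_range_sub (fun r => C.av r a x) s, C.av_zero]

lemma edge_fst (f : S → ℝ) : ∑ x, ∑ y, C.pi x * C.P x y * f x = ∑ x, C.pi x * f x := by
  refine Finset.sum_congr rfl fun x _ => ?_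
  have : ∑ y, C.pi x * C.P x y * f x = C.pi x * f x * ∑ y, C.P x y := by
    rw [Finset.mul_sum]
    exact Finset.sum_congr rfl fun y _ => by ring
  rw [this, C.P_sum, mul_one]

lemma edge_swap (f : S → S → ℝ) :
    ∑ x, ∑ y, C.pi x * C.P x y * f x y = ∑ x, ∑ y, C.pi x * C.P x y * f y x := by
  rw [Finset.sum_comm]
  refine Finset.sum_congr rfl fun x _ => Finset.sum_congr rfl fun y _ => ?_
  rw [C.rev y x]

lemma edge_snd (f : S → ℝ) : ∑ x, ∑ y, C.pi x * C.P x y * f y = ∑ x, C.pi x * f x := by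
  rw [edge_swap C (fun _ y => f y)]
  exact edge_fst C f

/-- The weighted energy identity. -/
lemma energy_id (u w : S → ℝ) :
    ∑ x, ∑ y, C.pi x * C.P x y * ((u y - u x) ^ 2 * w x)
      = ∑ x, C.pi x * w x * (C.av 1 (fun z => u z ^ 2) x - u x ^ 2)
        - 2 * ∑ x, C.pi x * w x * u x * (C.av 1 u x - u x) := by
  rw [Finset.mul_sum, ← Finset.sum_sub_distrib]
  refine Finset.sum_congr rfl fun x _ => ?_
  rw [av_one, av_one]
  have hP := C.P_sum x
  have e : ∀ y, C.pi x * C.P x y * ((u y - u x) ^ 2 * w x)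
      = C.pi x * w x * (C.P x y * u y ^ 2) - 2 * (C.pi x * w x * u x) * (C.P x y * u y)
        + C.pi x * w x * u x ^ 2 * C.P x y := fun y => by ring
  simp only [e, Finset.sum_add_distrib, Finset.sum_sub_distrib, ← Finset.mul_sum, hP]
  ring

variable {C}

/-- The main energy bound. -/
lemma energy_bound {a b : S → ℝ} {A : ℝ} (hA : 0 ≤ A) (ha : ∀ z, |a z| ≤ A) (hb : ∀ z, 0 ≤ b z)
    (s : ℕ) :
    ∑ x, ∑ y, C.pi x * C.P x y * ((Gr C s a y - Gr C s a x) ^ 2 * Gr C s b x)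
      ≤ 5 * (s : ℝ) ^ 2 * A ^ 2 * ∑ z, C.pi z * b z := by
  set u := Gr C s a with hu
  set w := Gr C s b with hw
  have hw0 : ∀ x, 0 ≤ w x := fun x => Gr_nonneg C hb s x
  have hu1 : ∀ x, |u x| ≤ s * A := fun x => Gr_bound C ha s x
  have hsA : (0 : ℝ) ≤ s * A := by positivity
  have hu2 : ∀ x, u x ^ 2 ≤ (s * A) ^ 2 := fun x => by
    rw [← sq_abs]
    exact pow_le_pow_left₀ (abs_nonneg _) (hu1 x) 2
  have hbs : 0 ≤ ∑ z, C.pi z * b z := Finset.sum_nonneg fun z _ => mul_nonneg (C.pi_nonneg z) (hb z)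
  rw [energy_id]
  have h1 : ∑ x, C.pi x * w x * (C.av 1 (fun z => u z ^ 2) x - u x ^ 2)
      ≤ (s * A) ^ 2 * ∑ z, C.pi z * b z := by
    have e1 : ∑ x, C.pi x * w x * (C.av 1 (fun z => u z ^ 2) x - u x ^ 2)
        = ∑ x, C.pi x * (C.av s b x - b x) * u x ^ 2 := by
      have h := C.av_selfadj 1 w (fun z => u z ^ 2)
      have e2 : ∑ x, C.pi x * w x * (C.av 1 (fun z => u z ^ 2) x - u x ^ 2)
          = ∑ x, C.pi x * w x * C.av 1 (fun z => u z ^ 2) x - ∑ x, C.pi x * w x * u x ^ 2 := by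
        rw [← Finset.sum_sub_distrib]
        exact Finset.sum_congr rfl fun x _ => by ring
      rw [e2, h, ← Finset.sum_sub_distrib]
      refine Finset.sum_congr rfl fun x _ => ?_
      have := lap_Gr C s b x
      rw [← this]
      ring
    rw [e1]
    calc ∑ x, C.pi x * (C.av s b x - b x) * u x ^ 2
        ≤ ∑ x, (s * A) ^ 2 * (C.pi x * C.av s b x) := by
          refine Finset.sum_le_sum fun x _ => ?_
          have hp := C.pi_nonneg x
          have hv : 0 ≤ C.av s b x := C.av_nonneg s hb x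
          have h2 := hu2 x
          have h3 := sq_nonneg (u x)
          have h4 := hb x
          have h5 : (C.av s b x - b x) * u x ^ 2 ≤ C.av s b x * (s * A) ^ 2 := by
            have : (C.av s b x - b x) * u x ^ 2 ≤ C.av s b x * u x ^ 2 := by nlinarith
            exact this.trans (mul_le_mul_of_nonneg_left h2 hv)
          calc C.pi x * (C.av s b x - b x) * u x ^ 2
              = C.pi x * ((C.av s b x - b x) * u x ^ 2) := by ring
            _ ≤ C.pi x * (C.av s b x * (s * A) ^ 2) := mul_le_mul_of_nonneg_left h5 hp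
            _ = _ := by ring
      _ = (s * A) ^ 2 * ∑ z, C.pi z * b z := by
          rw [← Finset.mul_sum, sum_pi_av]
  have h2 : -(2 * ∑ x, C.pi x * w x * u x * (C.av 1 u x - u x))
      ≤ 4 * (s : ℝ) ^ 2 * A ^ 2 * ∑ z, C.pi z * b z := by
    have hbd : ∀ x, |C.pi x * w x * u x * (C.av 1 u x - u x)| ≤ (2 * s * A ^ 2) * (C.pi x * w x) := by
      intro x
      have e : C.av 1 u x - u x = C.av s a x - a x := lap_Gr C s a x
      rw [e]
      have h3 : |C.av s a x - a x| ≤ 2 * A := by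
        have h4 := abs_sub (C.av s a x) (a x)
        have h5 := av_bound C ha s x
        have h6 := ha x
        linarith
      have hpw : 0 ≤ C.pi x * w x := mul_nonneg (C.pi_nonneg x) (hw0 x)
      rw [mul_assoc, abs_mul, abs_of_nonneg hpw, abs_mul, mul_comm]
      refine mul_le_mul_of_nonneg_right ?_ hpw
      calc |u x| * |C.av s a x - a x| ≤ (s * A) * (2 * A) :=
            mul_le_mul (hu1 x) h3 (abs_nonneg _) hsA
        _ = 2 * s * A ^ 2 := by ring
    have hs1 : |∑ x, C.pi x * w x * u x * (C.av 1 u x - u x)|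
        ≤ (2 * s * A ^ 2) * ∑ x, C.pi x * w x := by
      calc _ ≤ ∑ x, |C.pi x * w x * u x * (C.av 1 u x - u x)| := Finset.abs_sum_le_sum_abs _ _
        _ ≤ ∑ x, (2 * s * A ^ 2) * (C.pi x * w x) := Finset.sum_le_sum fun x _ => hbd x
        _ = _ := by rw [Finset.mul_sum]
    have hs2 : ∑ x, C.pi x * w x = s * ∑ z, C.pi z * b z := sum_pi_Gr C s b
    rw [hs2] at hs1
    have := neg_abs_le (∑ x, C.pi x * w x * u x * (C.av 1 u x - u x))
    nlinarith
  have e3 : (5 : ℝ) * s ^ 2 * A ^ 2 * ∑ z, C.pi z * b z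
      = (s * A) ^ 2 * ∑ z, C.pi z * b z + 4 * (s : ℝ) ^ 2 * A ^ 2 * ∑ z, C.pi z * b z := by ring
  rw [e3]
  linarith

/-- The energy bound with the weight at the other endpoint. -/
lemma energy_bound' {a b : S → ℝ} {A : ℝ} (hA : 0 ≤ A) (ha : ∀ z, |a z| ≤ A) (hb : ∀ z, 0 ≤ b z)
    (s : ℕ) :
    ∑ x, ∑ y, C.pi x * C.P x y * ((Gr C s a y - Gr C s a x) ^ 2 * Gr C s b y)
      ≤ 5 * (s : ℝ) ^ 2 * A ^ 2 * ∑ z, C.pi z * b z := by
  have h := energy_bound (C := C) hA ha hb s
  rw [edge_swap C] at h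
  calc _ = ∑ x, ∑ y, C.pi x * C.P x y * ((Gr C s a x - Gr C s a y) ^ 2 * Gr C s b y) := by
        refine Finset.sum_congr rfl fun x _ => Finset.sum_congr rfl fun y _ => ?_
        ring
    _ ≤ _ := h

end Vale.Agent.Lib.P125B
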