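import Vale.Agent.Lib.P125B.Energy

/-!
Estimates for the gradient of the Green operator applied to a field of test functions.
-/

namespace Vale.Agent.Lib.P125B

open Finset Matrix
open Vale.Agent.Lib.P125

variable {S : Type} [Fintype S] [DecidableEq S] (C : Chain S)

/-- The gradient along the edge `(x,y)` of the Green operator of a field. -/
noncomputable def hF (s : ℕ) (ξ : S → ℕ → ℝ) (x y : S) (i : ℕ) : ℝ :=
  Gr C s (fun z => ξ z i) y - Gr C s (fun z => ξ z i) x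

/-- The jump of the field at `i`. -/
noncomputable def bF (ξ : S → ℕ → ℝ) (i : ℕ) (z : S) : ℝ := |ξ z (i + 1) - ξ z i|

/-- The increment control. -/
noncomputable def μF (s : ℕ) (ξ : S → ℕ → ℝ) (x y : S) (i : ℕ) : ℝ :=
  Gr C s (bF ξ i) x + Gr C s (bF ξ i) y

lemma bF_nonneg (ξ : S → ℕ → ℝ) (i : ℕ) (z : S) : 0 ≤ bF ξ i z := abs_nonneg _

lemma hF_step (s : ℕ) (ξ : S → ℕ → ℝ) (x y : S) (i : ℕ) :
    |hF C s ξ x y (i + 1) - hF C s ξ x y i| ≤ μF C s ξ x y i := by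
  unfold hF μF
  have e : Gr C s (fun z => ξ z (i + 1)) y - Gr C s (fun z => ξ z (i + 1)) x
      - (Gr C s (fun z => ξ z i) y - Gr C s (fun z => ξ z i) x)
      = Gr C s (fun z => ξ z (i + 1) - ξ z i) y - Gr C s (fun z => ξ z (i + 1) - ξ z i) x := by
    rw [Gr_sub, Gr_sub]
    ring
  rw [e]
  have h1 := abs_sub (Gr C s (fun z => ξ z (i + 1) - ξ z i) y)
    (Gr C s (fun z => ξ z (i + 1) - ξ z i) x)
  have h2 := Gr_abs_le C s (fun z => ξ z (i + 1) - ξ z i) y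
  have h3 := Gr_abs_le C s (fun z => ξ z (i + 1) - ξ z i) x
  have e2 : (fun w => |ξ w (i + 1) - ξ w i|) = bF ξ i := rfl
  rw [e2] at h2 h3
  linarith

/-- Exchanging a finite sum with the edge expectation. -/
lemma edge_sum_comm {ι : Type} (I : Finset ι) (f : ι → S → S → ℝ) :
    ∑ x, ∑ y, C.pi x * C.P x y * ∑ i ∈ I, f i x y
      = ∑ i ∈ I, ∑ x, ∑ y, C.pi x * C.P x y * f i x y := by
  have h : ∀ x, ∑ y, C.pi x * C.P x y * ∑ i ∈ I, f i x y
      = ∑ i ∈ I, ∑ y, C.pi x * C.P x y * f i x y := by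
    intro x
    simp only [Finset.mul_sum]
    rw [Finset.sum_comm]
  simp only [h]
  rw [Finset.sum_comm]

lemma edge_mu (s : ℕ) (b : S → ℝ) :
    ∑ x, ∑ y, C.pi x * C.P x y * (Gr C s b x + Gr C s b y)
      = 2 * s * ∑ z, C.pi z * b z := by
  have e : ∀ x y, C.pi x * C.P x y * (Gr C s b x + Gr C s b y)
      = C.pi x * C.P x y * Gr C s b x + C.pi x * C.P x y * Gr C s b y := fun x y => by ring
  simp only [e, Finset.sum_add_distrib]
  rw [edge_fst C (Gr C s b), edge_snd C (Gr C s b), sum_pi_Gr]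
  ring

lemma E_V (s N : ℕ) (ξ : S → ℕ → ℝ) :
    ∑ x, ∑ y, C.pi x * C.P x y * Vv N (μF C s ξ x y)
      = 2 * s * ∑ i ∈ range N, ∑ z, C.pi z * bF ξ i z := by
  unfold Vv
  rw [edge_sum_comm C (range N) (fun i x y => μF C s ξ x y i), Finset.mul_sum]
  refine Finset.sum_congr rfl fun i _ => ?_
  exact edge_mu C s (bF ξ i)

lemma E_J {A : ℝ} (hA : 0 ≤ A) (s N : ℕ) (ξ : S → ℕ → ℝ) (hξ : ∀ z i, |ξ z i| ≤ A) :
    ∑ x, ∑ y, C.pi x * C.P x y * Jj N (hF C s ξ x y) (μF C s ξ x y)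
      ≤ 20 * (s : ℝ) ^ 2 * A ^ 2 * ∑ i ∈ range N, ∑ z, C.pi z * bF ξ i z := by
  unfold Jj
  rw [edge_sum_comm C (range N)
    (fun i x y => (hF C s ξ x y (i + 1) ^ 2 + hF C s ξ x y i ^ 2) * μF C s ξ x y i), Finset.mul_sum]
  refine Finset.sum_le_sum fun i _ => ?_
  have hb := bF_nonneg ξ i
  have h1 := energy_bound (C := C) hA (fun z => hξ z (i + 1)) hb s
  have h2 := energy_bound' (C := C) hA (fun z => hξ z (i + 1)) hb s
  have h3 := energy_bound (C := C) hA (fun z => hξ z i) hb s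
  have h4 := energy_bound' (C := C) hA (fun z => hξ z i) hb s
  have e : ∀ x y, C.pi x * C.P x y *
      ((hF C s ξ x y (i + 1) ^ 2 + hF C s ξ x y i ^ 2) * μF C s ξ x y i)
      = C.pi x * C.P x y * ((Gr C s (fun z => ξ z (i + 1)) y - Gr C s (fun z => ξ z (i + 1)) x) ^ 2
            * Gr C s (bF ξ i) x)
        + C.pi x * C.P x y * ((Gr C s (fun z => ξ z (i + 1)) y - Gr C s (fun z => ξ z (i + 1)) x) ^ 2
            * Gr C s (bF ξ i) y)
        + C.pi x * C.P x y * ((Gr C s (fun z => ξ z i) y - Gr C s (fun z => ξ z i) x) ^ 2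
            * Gr C s (bF ξ i) x)
        + C.pi x * C.P x y * ((Gr C s (fun z => ξ z i) y - Gr C s (fun z => ξ z i) x) ^ 2
            * Gr C s (bF ξ i) y) := by
    intro x y
    unfold hF μF
    ring
  simp only [e, Finset.sum_add_distrib]
  linarith

/-- Total variation of a step function. -/
lemma IsStep.tv {n : ℕ} {φ : ℕ → ℝ} (h : IsStep n φ) (N : ℕ) :
    ∑ i ∈ range N, |φ (i + 1) - φ i| ≤ 2 * n := by
  classical
  obtain ⟨-, h1, T, hT, hj⟩ := h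
  have hb : ∀ i, |φ (i + 1) - φ i| ≤ 2 := fun i => by
    have := abs_sub (φ (i + 1)) (φ i)
    have := h1 i
    have := h1 (i + 1)
    linarith
  have e : ∑ i ∈ range N, |φ (i + 1) - φ i| = ∑ i ∈ (range N).filter (· ∈ T), |φ (i + 1) - φ i| := by
    rw [Finset.sum_filter]
    refine Finset.sum_congr rfl fun i _ => ?_
    split_ifs with hi
    · rfl
    · have : φ (i + 1) = φ i := by
        by_contra hne
        exact hi (hj i hne)
      simp [this]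
  rw [e]
  calc ∑ i ∈ (range N).filter (· ∈ T), |φ (i + 1) - φ i|
      ≤ ∑ i ∈ T, |φ (i + 1) - φ i| :=
        Finset.sum_le_sum_of_subset_of_nonneg
          (fun i hi => (Finset.mem_filter.mp hi).2) (fun _ _ _ => abs_nonneg _)
    _ ≤ ∑ _i ∈ T, (2 : ℝ) := Finset.sum_le_sum fun i _ => hb i
    _ = 2 * T.card := by rw [Finset.sum_const, nsmul_eq_mul]; ring
    _ ≤ 2 * n := by
        have : (T.card : ℝ) ≤ n := by exact_mod_cast hT
        linarith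

/-- The level fields of a family of test functions. -/
noncomputable def lev (φ : S → ℕ → ℕ → ℝ) (ρ : ℕ) (z : S) (i : ℕ) : ℝ := φ z ρ i / 2 ^ ρ

lemma lev_bound {φ : S → ℕ → ℕ → ℝ} {n : S → ℕ → ℕ} {ρ : ℕ}
    (hφ : ∀ z, IsStep (n z ρ) (φ z ρ)) (z : S) (i : ℕ) : |lev φ ρ z i| ≤ 1 / 2 ^ ρ := by
  unfold lev
  rw [abs_div, abs_of_pos (by positivity : (0 : ℝ) < 2 ^ ρ)]
  exact div_le_div_of_nonneg_right ((hφ z).2.1 i) (by positivity)

lemma lev_tv {φ : S → ℕ → ℕ → ℝ} {n : S → ℕ → ℕ} {ρ : ℕ}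
    (hφ : ∀ z, IsStep (n z ρ) (φ z ρ)) (N : ℕ) :
    ∑ i ∈ range N, ∑ z, C.pi z * bF (lev φ ρ) i z
      ≤ 2 / 2 ^ ρ * ∑ z, C.pi z * (n z ρ : ℝ) := by
  rw [Finset.sum_comm, Finset.mul_sum]
  refine Finset.sum_le_sum fun z _ => ?_
  rw [← Finset.mul_sum]
  have e : ∑ i ∈ range N, bF (lev φ ρ) i z = (∑ i ∈ range N, |φ z ρ (i + 1) - φ z ρ i|) / 2 ^ ρ := by
    rw [Finset.sum_div]
    refine Finset.sum_congr rfl fun i _ => ?_
    unfold bF lev
    rw [← sub_div, abs_div, abs_of_pos (by positivity : (0 : ℝ) < 2 ^ ρ)]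
  rw [e]
  have h := (hφ z).tv N
  have h2 : (∑ i ∈ range N, |φ z ρ (i + 1) - φ z ρ i|) / 2 ^ ρ ≤ (2 * (n z ρ : ℝ)) / 2 ^ ρ :=
    div_le_div_of_nonneg_right h (by positivity)
  calc C.pi z * ((∑ i ∈ range N, |φ z ρ (i + 1) - φ z ρ i|) / 2 ^ ρ)
      ≤ C.pi z * ((2 * (n z ρ : ℝ)) / 2 ^ ρ) := mul_le_mul_of_nonneg_left h2 (C.pi_nonneg z)
    _ = 2 / 2 ^ ρ * (C.pi z * (n z ρ : ℝ)) := by ring

/-- The expectation of the size functional of the pairing bound. -/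
lemma E_bnd {t : ℝ} (ht : 0 < t) {s N R : ℕ} (hst : (s : ℝ) = t ^ 2)
    {φ : S → ℕ → ℕ → ℝ} {n : S → ℕ → ℕ}
    (hφ : ∀ z, ∀ ρ ∈ range R, IsStep (n z ρ) (φ z ρ))
    (hn : ∀ z, ∑ ρ ∈ range R, (n z ρ : ℝ) / 4 ^ ρ ≤ 1) :
    ∑ x, ∑ y, C.pi x * C.P x y *
        bnd N R t (fun ρ => hF C s (lev φ ρ) x y) (fun ρ => μF C s (lev φ ρ) x y)
      ≤ 3052120 * t := by
  have hs : ∀ x y, C.pi x * C.P x y *
        bnd N R t (fun ρ => hF C s (lev φ ρ) x y) (fun ρ => μF C s (lev φ ρ) x y)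
      = C.pi x * C.P x y * ∑ ρ ∈ range R,
          (30 * (Vv N (μF C s (lev φ ρ) x y) / (t * 2 ^ ρ))
            + 76300 * (2 ^ ρ * Jj N (hF C s (lev φ ρ) x y) (μF C s (lev φ ρ) x y) / t ^ 3)) := by
    intro x y
    rfl
  simp only [hs]
  rw [edge_sum_comm C (range R) (fun ρ x y => 30 * (Vv N (μF C s (lev φ ρ) x y) / (t * 2 ^ ρ))
            + 76300 * (2 ^ ρ * Jj N (hF C s (lev φ ρ) x y) (μF C s (lev φ ρ) x y) / t ^ 3))]
  have hmain : ∀ ρ ∈ range R, ∑ x, ∑ y, C.pi x * C.P x y *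
      (30 * (Vv N (μF C s (lev φ ρ) x y) / (t * 2 ^ ρ))
            + 76300 * (2 ^ ρ * Jj N (hF C s (lev φ ρ) x y) (μF C s (lev φ ρ) x y) / t ^ 3))
      ≤ 3052120 * t * (∑ z, C.pi z * (n z ρ : ℝ) / 4 ^ ρ) := by
    intro ρ hρ
    have hA : (0 : ℝ) ≤ 1 / 2 ^ ρ := by positivity
    have hV := E_V C s N (lev φ ρ)
    have hJ := E_J C hA s N (lev φ ρ) (lev_bound fun z => hφ z ρ hρ)
    have hT := lev_tv C (φ := φ) (n := n) (ρ := ρ) (fun z => hφ z ρ hρ) N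
    set T := ∑ i ∈ range N, ∑ z, C.pi z * bF (lev φ ρ) i z with hTdef
    set m := ∑ z, C.pi z * (n z ρ : ℝ) with hm
    have hm0 : 0 ≤ m := Finset.sum_nonneg fun z _ => mul_nonneg (C.pi_nonneg z) (by positivity)
    have e : ∀ x y, C.pi x * C.P x y *
        (30 * (Vv N (μF C s (lev φ ρ) x y) / (t * 2 ^ ρ))
            + 76300 * (2 ^ ρ * Jj N (hF C s (lev φ ρ) x y) (μF C s (lev φ ρ) x y) / t ^ 3))
        = 30 / (t * 2 ^ ρ) * (C.pi x * C.P x y * Vv N (μF C s (lev φ ρ) x y))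
          + 76300 * 2 ^ ρ / t ^ 3 *
            (C.pi x * C.P x y * Jj N (hF C s (lev φ ρ) x y) (μF C s (lev φ ρ) x y)) := by
      intro x y
      field_simp
    simp only [e, Finset.sum_add_distrib, ← Finset.mul_sum]
    rw [hV]
    have h4 : ∑ z, C.pi z * (n z ρ : ℝ) / 4 ^ ρ = m / 4 ^ ρ := by
      rw [Finset.sum_div]
    rw [h4]
    have h1 : 30 / (t * 2 ^ ρ) * (2 * s * T) ≤ 30 / (t * 2 ^ ρ) * (2 * s * (2 / 2 ^ ρ * m)) :=
      mul_le_mul_of_nonneg_left (mul_le_mul_of_nonneg_left hT (by positivity)) (by positivity)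
    have h2 : 76300 * 2 ^ ρ / t ^ 3 *
        (∑ x, ∑ y, C.pi x * C.P x y * Jj N (hF C s (lev φ ρ) x y) (μF C s (lev φ ρ) x y))
        ≤ 76300 * 2 ^ ρ / t ^ 3 * (20 * (s : ℝ) ^ 2 * (1 / 2 ^ ρ) ^ 2 * (2 / 2 ^ ρ * m)) := by
      refine mul_le_mul_of_nonneg_left ?_ (by positivity)
      refine hJ.trans ?_
      exact mul_le_mul_of_nonneg_left hT (by positivity)
    have e1 : 30 / (t * 2 ^ ρ) * (2 * s * (2 / 2 ^ ρ * m)) = 120 * t * (m / 4 ^ ρ) := by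
      rw [hst, four_pow]
      field_simp
      ring
    have e2 : 76300 * 2 ^ ρ / t ^ 3 * (20 * (s : ℝ) ^ 2 * (1 / 2 ^ ρ) ^ 2 * (2 / 2 ^ ρ * m))
        = 3052000 * t * (m / 4 ^ ρ) := by
      rw [hst, four_pow]
      field_simp
      ring
    rw [e1] at h1
    rw [e2] at h2
    have e3 : (3052120 : ℝ) * t * (m / 4 ^ ρ) = 120 * t * (m / 4 ^ ρ) + 3052000 * t * (m / 4 ^ ρ) := by
      ring
    rw [e3]
    linarith
  refine (Finset.sum_le_sum hmain).trans ?_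
  rw [← Finset.mul_sum]
  have hsum : ∑ ρ ∈ range R, ∑ z, C.pi z * (n z ρ : ℝ) / 4 ^ ρ ≤ 1 := by
    rw [Finset.sum_comm]
    calc ∑ z, ∑ ρ ∈ range R, C.pi z * (n z ρ : ℝ) / 4 ^ ρ
        = ∑ z, C.pi z * ∑ ρ ∈ range R, (n z ρ : ℝ) / 4 ^ ρ := by
          refine Finset.sum_congr rfl fun z _ => ?_
          rw [Finset.mul_sum]
          exact Finset.sum_congr rfl fun ρ _ => by ring
      _ ≤ ∑ z, C.pi z * 1 :=
          Finset.sum_le_sum fun z _ => mul_le_mul_of_nonneg_left (hn z) (C.pi_nonneg z)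
      _ = 1 := by simpa using C.pi_sum
  have : 3052120 * t * ∑ ρ ∈ range R, ∑ z, C.pi z * (n z ρ : ℝ) / 4 ^ ρ ≤ 3052120 * t * 1 :=
    mul_le_mul_of_nonneg_left hsum (by positivity)
  linarith

end Vale.Agent.Lib.P125B
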