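import Vale.Agent.Lib.P125B.Norm

/-!
Greedy step approximation of a function with controlled increments.
-/

namespace Vale.Agent.Lib.P125B

open Finset

/-- The greedy step approximation of `h` at accuracy `δ`: it keeps its value until `h` leaves the
`δ` neighbourhood of this value. -/
noncomputable def greedy (h : ℕ → ℝ) (δ : ℝ) : ℕ → ℝ
  | 0 => 0
  | i + 1 => if δ < |h (i + 1) - greedy h δ i| then h (i + 1) else greedy h δ i

lemma greedy_zero (h : ℕ → ℝ) (δ : ℝ) : greedy h δ 0 = 0 := rfl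

lemma greedy_succ (h : ℕ → ℝ) (δ : ℝ) (i : ℕ) :
    greedy h δ (i + 1) = if δ < |h (i + 1) - greedy h δ i| then h (i + 1) else greedy h δ i := rfl

lemma abs_sub_greedy_le {h : ℕ → ℝ} (h0 : h 0 = 0) {δ : ℝ} (hδ : 0 ≤ δ) (i : ℕ) :
    |h i - greedy h δ i| ≤ δ := by
  cases i with
  | zero => simp [greedy_zero, h0, hδ]
  | succ i =>
    rw [greedy_succ]
    split_ifs with hc
    · simpa using hδ
    · exact not_lt.mp hc

/-- The indices below `N` at which the greedy approximation jumps. -/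
noncomputable def jset (h : ℕ → ℝ) (δ : ℝ) (N : ℕ) : Finset ℕ :=
  (range N).filter fun i => δ < |h (i + 1) - greedy h δ i|

lemma jset_card_succ (h : ℕ → ℝ) (δ : ℝ) (N : ℕ) :
    ((jset h δ (N + 1)).card : ℝ) = (jset h δ N).card +
      if δ < |h (N + 1) - greedy h δ N| then 1 else 0 := by
  unfold jset
  rw [Finset.range_add_one, Finset.filter_insert]
  split_ifs with hc
  · rw [Finset.card_insert_of_notMem]
    · push_cast
      ring
    · simp
  · simp

/-- Linear count of the jumps. -/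
lemma jset_linear {h μ : ℕ → ℝ} {δ : ℝ} (hδ : 0 ≤ δ) (N : ℕ)
    (hμ : ∀ i ∈ range N, |h (i + 1) - h i| ≤ μ i) (h0 : h 0 = 0) :
    ((jset h δ N).card : ℝ) * δ + |h N - greedy h δ N| ≤ ∑ i ∈ range N, μ i := by
  induction N with
  | zero => simp [jset, greedy_zero, h0]
  | succ N ih =>
    have ih' := ih fun i hi =>
      hμ i (Finset.mem_range.mpr ((Finset.mem_range.mp hi).trans (Nat.lt_succ_self N)))
    have hs := hμ N (Finset.mem_range.mpr (Nat.lt_succ_self N))
    rw [jset_card_succ, Finset.sum_range_succ, greedy_succ]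
    have tri : |h (N + 1) - greedy h δ N| ≤ |h N - greedy h δ N| + |h (N + 1) - h N| := by
      have := abs_add_le (h N - greedy h δ N) (h (N + 1) - h N)
      have e : h N - greedy h δ N + (h (N + 1) - h N) = h (N + 1) - greedy h δ N := by ring
      rwa [e] at this
    split_ifs with hc
    · simp only [sub_self, abs_zero, add_zero]
      nlinarith
    · simp only [add_zero]
      linarith

lemma cube_diff_lower (a b : ℝ) : |b - a| ^ 3 / 4 ≤ |b ^ 3 - a ^ 3| := by
  have e : b ^ 3 - a ^ 3 = (b - a) * (a ^ 2 + a * b + b ^ 2) := by ring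
  have hq : (b - a) ^ 2 / 4 ≤ a ^ 2 + a * b + b ^ 2 := by nlinarith [sq_nonneg (a + b)]
  have hq0 : 0 ≤ a ^ 2 + a * b + b ^ 2 := by nlinarith [sq_nonneg (a + b), sq_nonneg (b - a)]
  rw [e, abs_mul, abs_of_nonneg hq0]
  have h3 : |b - a| ^ 3 = |b - a| * (b - a) ^ 2 := by
    rw [pow_succ, sq_abs]
    ring
  rw [h3]
  have := mul_le_mul_of_nonneg_left hq (abs_nonneg (b - a))
  linarith

lemma cube_diff_upper (a b μ : ℝ) (h : |b - a| ≤ μ) :
    |b ^ 3 - a ^ 3| ≤ 3 / 2 * ((b ^ 2 + a ^ 2) * μ) := by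
  have e : b ^ 3 - a ^ 3 = (b - a) * (a ^ 2 + a * b + b ^ 2) := by ring
  have hq0 : 0 ≤ a ^ 2 + a * b + b ^ 2 := by nlinarith [sq_nonneg (a + b), sq_nonneg (b - a)]
  have hq : a ^ 2 + a * b + b ^ 2 ≤ 3 / 2 * (b ^ 2 + a ^ 2) := by nlinarith [sq_nonneg (a - b)]
  have hμ : 0 ≤ μ := (abs_nonneg _).trans h
  rw [e, abs_mul, abs_of_nonneg hq0]
  calc |b - a| * (a ^ 2 + a * b + b ^ 2) ≤ μ * (3 / 2 * (b ^ 2 + a ^ 2)) :=
        mul_le_mul h hq hq0 hμ
    _ = _ := by ring

/-- Cubic count of the jumps, a form of the Cramer von Mises inequality. -/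
lemma jset_cubic {h μ : ℕ → ℝ} {δ : ℝ} (hδ : 0 ≤ δ) (N : ℕ)
    (hμ : ∀ i ∈ range N, |h (i + 1) - h i| ≤ μ i) (h0 : h 0 = 0) :
    ((jset h δ N).card : ℝ) * δ ^ 3 / 4 + |h N ^ 3 - greedy h δ N ^ 3|
      ≤ 3 / 2 * ∑ i ∈ range N, (h (i + 1) ^ 2 + h i ^ 2) * μ i := by
  induction N with
  | zero => simp [jset, greedy_zero, h0]
  | succ N ih =>
    have ih' := ih fun i hi =>
      hμ i (Finset.mem_range.mpr ((Finset.mem_range.mp hi).trans (Nat.lt_succ_self N)))
    have hs := hμ N (Finset.mem_range.mpr (Nat.lt_succ_self N))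
    have hup := cube_diff_upper (h N) (h (N + 1)) (μ N) hs
    rw [jset_card_succ, Finset.sum_range_succ, greedy_succ]
    have tri : |h (N + 1) ^ 3 - greedy h δ N ^ 3|
        ≤ |h N ^ 3 - greedy h δ N ^ 3| + |h (N + 1) ^ 3 - h N ^ 3| := by
      have := abs_add_le (h N ^ 3 - greedy h δ N ^ 3) (h (N + 1) ^ 3 - h N ^ 3)
      have e : h N ^ 3 - greedy h δ N ^ 3 + (h (N + 1) ^ 3 - h N ^ 3)
          = h (N + 1) ^ 3 - greedy h δ N ^ 3 := by ring
      rwa [e] at this
    split_ifs with hc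
    · have hl := cube_diff_lower (greedy h δ N) (h (N + 1))
      have hc3 : δ ^ 3 ≤ |h (N + 1) - greedy h δ N| ^ 3 := pow_le_pow_left₀ hδ hc.le 3
      simp only [sub_self, abs_zero, add_zero]
      rw [mul_add]
      nlinarith
    · simp only [add_zero]
      rw [mul_add]
      linarith

/-- No jump: the approximation vanishes. -/
lemma greedy_eq_zero_of_card {h : ℕ → ℝ} {δ : ℝ} {N : ℕ} (hc : (jset h δ N).card = 0) {i : ℕ}
    (hi : i ≤ N) : greedy h δ i = 0 := by
  induction i with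
  | zero => exact greedy_zero h δ
  | succ i ih =>
    rw [greedy_succ]
    have hnot : ¬ δ < |h (i + 1) - greedy h δ i| := by
      intro hlt
      have : i ∈ jset h δ N := by
        unfold jset
        exact Finset.mem_filter.mpr ⟨Finset.mem_range.mpr (by omega), hlt⟩
      rw [Finset.card_eq_zero.mp hc] at this
      simp at this
    rw [if_neg hnot]
    exact ih (by omega)

/-- A jump of the truncated approximation lies in the jump set. -/
lemma jump_mem {h : ℕ → ℝ} {δ : ℝ} {N i : ℕ}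
    (hne : greedy h δ (min (i + 1) N) ≠ greedy h δ (min i N)) : i ∈ jset h δ N := by
  by_cases hi : i < N
  · have e1 : min (i + 1) N = i + 1 := min_eq_left (by omega)
    have e2 : min i N = i := min_eq_left (by omega)
    rw [e1, e2, greedy_succ] at hne
    unfold jset
    refine Finset.mem_filter.mpr ⟨Finset.mem_range.mpr hi, ?_⟩
    by_contra hc
    rw [if_neg hc] at hne
    exact hne rfl
  · have e1 : min (i + 1) N = N := min_eq_right (by omega)
    have e2 : min i N = N := min_eq_right (by omega)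
    rw [e1, e2] at hne
    exact absurd rfl hne

end Vale.Agent.Lib.P125B
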