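import Vale.Agent.Lib.P125B.Greedy

/-!
Pairing a sum of functions with controlled increments against a vector, through a multi level
step approximation.
-/

namespace Vale.Agent.Lib.P125B

open Finset

/-- Weights used to share the accuracy among levels. -/
noncomputable def wt (k c : ℕ) : ℝ := (1 / 12) * (5 / 6 : ℝ) ^ ((k - c) + (c - k))

lemma wt_pos (k c : ℕ) : 0 < wt k c := by unfold wt; positivity

lemma sum_pow_inj_le {ι : Type} [DecidableEq ι] (C : Finset ι) (f : ι → ℕ) (hf : Set.InjOn f C)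
    {q : ℝ} (hq0 : 0 ≤ q) (hq1 : q < 1) : ∑ c ∈ C, q ^ f c ≤ (1 - q)⁻¹ := by
  classical
  rw [← Finset.sum_image (f := fun m => q ^ m) hf]
  have := (summable_geometric_of_lt_one hq0 hq1).sum_le_tsum (C.image f)
    (fun i _ => pow_nonneg hq0 i)
  rwa [tsum_geometric_of_lt_one hq0 hq1] at this

lemma wt_sum (k τ R : ℕ) : ∑ ρ ∈ range R, wt k (τ + ρ) ≤ 1 := by
  classical
  unfold wt
  rw [← Finset.mul_sum]
  have hq0 : (0 : ℝ) ≤ 5 / 6 := by norm_num
  have hq1 : (5 / 6 : ℝ) < 1 := by norm_num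
  have hi : ((1 : ℝ) - 5 / 6)⁻¹ = 6 := by norm_num
  have h1 : ∑ ρ ∈ (range R).filter (fun ρ => τ + ρ ≤ k), (5 / 6 : ℝ) ^ ((k - (τ + ρ)) + ((τ + ρ) - k))
      ≤ 6 := by
    refine (sum_pow_inj_le _ (fun ρ => (k - (τ + ρ)) + ((τ + ρ) - k)) ?_ hq0 hq1).trans hi.le
    intro a ha b hb hab
    have ha' := (Finset.mem_filter.mp (Finset.mem_coe.mp ha)).2
    have hb' := (Finset.mem_filter.mp (Finset.mem_coe.mp hb)).2
    have hab' : (k - (τ + a)) + ((τ + a) - k) = (k - (τ + b)) + ((τ + b) - k) := hab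
    omega
  have h2 : ∑ ρ ∈ (range R).filter (fun ρ => ¬ τ + ρ ≤ k),
      (5 / 6 : ℝ) ^ ((k - (τ + ρ)) + ((τ + ρ) - k)) ≤ 6 := by
    refine (sum_pow_inj_le _ (fun ρ => (k - (τ + ρ)) + ((τ + ρ) - k)) ?_ hq0 hq1).trans hi.le
    intro a ha b hb hab
    have ha' := (Finset.mem_filter.mp (Finset.mem_coe.mp ha)).2
    have hb' := (Finset.mem_filter.mp (Finset.mem_coe.mp hb)).2
    have hab' : (k - (τ + a)) + ((τ + a) - k) = (k - (τ + b)) + ((τ + b) - k) := hab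
    omega
  rw [← Finset.sum_filter_add_sum_filter_not (range R) (fun ρ => τ + ρ ≤ k)]
  linarith

lemma four_pow (n : ℕ) : (4 : ℝ) ^ n = (2 ^ n) ^ 2 := by
  rw [← pow_mul, mul_comm, pow_mul]
  norm_num

/-- First level estimate, when the level is below the amplitude scale. -/
lemma level_above {j V t : ℝ} (ht : 0 < t) (τ ρ x : ℕ)
    (h : j * (t * 2 ^ τ / 2 ^ (τ + ρ + x) * ((1 / 12) * (5 / 6 : ℝ) ^ x)) ≤ V) :
    4 ^ τ / 4 ^ (τ + ρ + x) * j ≤ 12 * (3 / 5 : ℝ) ^ x * (V / (t * 2 ^ ρ)) := by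
  have hA : (0 : ℝ) < 2 ^ ρ := by positivity
  have hX : (0 : ℝ) < 2 ^ x := by positivity
  have hQ : (0 : ℝ) < (5 / 6) ^ x := by positivity
  have hT : (0 : ℝ) < 2 ^ τ := by positivity
  have hP : ((3 / 5 : ℝ)) ^ x * ((5 / 6) ^ x * 2 ^ x) = 1 := by
    rw [← mul_pow, ← mul_pow]
    norm_num
  have e4 : (4 : ℝ) ^ τ / 4 ^ (τ + ρ + x) = 1 / ((2 ^ ρ) ^ 2 * (2 ^ x) ^ 2) := by
    rw [pow_add, pow_add, four_pow ρ, four_pow x]
    have h1 : (4 : ℝ) ^ τ ≠ 0 := by positivity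
    field_simp
  have e2 : t * 2 ^ τ / 2 ^ (τ + ρ + x) = t / (2 ^ ρ * 2 ^ x) := by
    rw [pow_add, pow_add]
    field_simp
  rw [e2] at h
  rw [e4]
  set A : ℝ := 2 ^ ρ
  set X : ℝ := 2 ^ x
  set Q : ℝ := (5 / 6) ^ x
  set P : ℝ := (3 / 5) ^ x
  have hPe : P = 1 / (Q * X) := by
    field_simp
    linarith [hP]
  have key : 1 / (A ^ 2 * X ^ 2) * j
      = (j * (t / (A * X) * ((1 / 12) * Q))) * (12 * P / (t * A)) := by
    rw [hPe]
    field_simp
  rw [key]
  have hc : 0 ≤ 12 * P / (t * A) := by positivity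
  calc (j * (t / (A * X) * ((1 / 12) * Q))) * (12 * P / (t * A))
      ≤ V * (12 * P / (t * A)) := mul_le_mul_of_nonneg_right h hc
    _ = 12 * P * (V / (t * A)) := by field_simp

/-- Second level estimate, when the level is above the amplitude scale. -/
lemma level_below {j J t : ℝ} (ht : 0 < t) (τ ρ k y : ℕ) (hy : τ + ρ = k + y)
    (h : j * (t * 2 ^ τ / 2 ^ k * ((1 / 12) * (5 / 6 : ℝ) ^ y)) ^ 3 ≤ 6 * J) :
    4 ^ τ / 4 ^ k * j ≤ 10368 * (108 / 125 : ℝ) ^ y * (2 ^ ρ * J / t ^ 3) := by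
  have hA : (0 : ℝ) < 2 ^ ρ := by positivity
  have hY : (0 : ℝ) < 2 ^ y := by positivity
  have hQ : (0 : ℝ) < (5 / 6) ^ y := by positivity
  have hT : (0 : ℝ) < 2 ^ τ := by positivity
  have hK : (0 : ℝ) < 2 ^ k := by positivity
  have hP : ((108 / 125 : ℝ)) ^ y * (2 ^ y * ((5 / 6) ^ y) ^ 3) = 1 := by
    rw [← pow_mul, mul_comm y 3, pow_mul, ← mul_pow, ← mul_pow]
    norm_num
  have e2 : (2 : ℝ) ^ τ * 2 ^ ρ = 2 ^ k * 2 ^ y := by
    rw [← pow_add, ← pow_add, hy]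
  have e21 : (2 : ℝ) ^ τ / 2 ^ k = 2 ^ y / 2 ^ ρ := by
    field_simp
    linarith [e2]
  have e4 : (4 : ℝ) ^ τ / 4 ^ k = (2 ^ y) ^ 2 / (2 ^ ρ) ^ 2 := by
    rw [four_pow τ, four_pow k, ← div_pow, e21, div_pow]
  have e3 : t * 2 ^ τ / 2 ^ k = t * (2 ^ y / 2 ^ ρ) := by
    rw [mul_div_assoc, e21]
  rw [e3] at h
  rw [e4]
  set A : ℝ := 2 ^ ρ
  set Y : ℝ := 2 ^ y
  set Q : ℝ := (5 / 6) ^ y
  set P : ℝ := (108 / 125) ^ y
  have hPe : P = 1 / (Y * Q ^ 3) := by
    field_simp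
    linarith [hP]
  have key : Y ^ 2 / A ^ 2 * j
      = (j * (t * (Y / A) * ((1 / 12) * Q)) ^ 3) * (10368 / 6 * P * (A / t ^ 3)) := by
    rw [hPe]
    field_simp
    ring
  rw [key]
  have hc : 0 ≤ 10368 / 6 * P * (A / t ^ 3) := by positivity
  calc (j * (t * (Y / A) * ((1 / 12) * Q)) ^ 3) * (10368 / 6 * P * (A / t ^ 3))
      ≤ (6 * J) * (10368 / 6 * P * (A / t ^ 3)) := mul_le_mul_of_nonneg_right h hc
    _ = 10368 * P * (A * J / t ^ 3) := by field_simp

/-- The sum over all levels for one function. -/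
lemma levels_sum {t V J : ℝ} (ht : 0 < t) (hV : 0 ≤ V) (hJ : 0 ≤ J) (τ ρ L : ℕ) (j : ℕ → ℝ)
    (h1 : ∀ k, j k * (t * 2 ^ τ / 2 ^ k * wt k (τ + ρ)) ≤ V)
    (h2 : ∀ k, j k * (t * 2 ^ τ / 2 ^ k * wt k (τ + ρ)) ^ 3 ≤ 6 * J) :
    ∑ k ∈ range L, (4 : ℝ) ^ τ / 4 ^ k * j k
      ≤ 30 * (V / (t * 2 ^ ρ)) + 76300 * (2 ^ ρ * J / t ^ 3) := by
  classical
  have hV' : 0 ≤ V / (t * 2 ^ ρ) := by positivity
  have hJ' : 0 ≤ 2 ^ ρ * J / t ^ 3 := by positivity
  rw [← Finset.sum_filter_add_sum_filter_not (range L) (fun k => τ + ρ ≤ k)]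
  refine add_le_add ?_ ?_
  · calc ∑ k ∈ (range L).filter (fun k => τ + ρ ≤ k), (4 : ℝ) ^ τ / 4 ^ k * j k
        ≤ ∑ k ∈ (range L).filter (fun k => τ + ρ ≤ k),
            (3 / 5 : ℝ) ^ (k - (τ + ρ)) * (12 * (V / (t * 2 ^ ρ))) := by
          refine Finset.sum_le_sum fun k hk => ?_
          have hk' := (Finset.mem_filter.mp hk).2
          obtain ⟨x, rfl⟩ := Nat.exists_eq_add_of_le hk'
          have hh := h1 (τ + ρ + x)
          have ew : wt (τ + ρ + x) (τ + ρ) = (1 / 12) * (5 / 6 : ℝ) ^ x := by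
            unfold wt
            congr 2
            omega
          rw [ew] at hh
          have := level_above ht τ ρ x hh
          have e : τ + ρ + x - (τ + ρ) = x := by omega
          rw [e]
          linarith
      _ = (∑ k ∈ (range L).filter (fun k => τ + ρ ≤ k), (3 / 5 : ℝ) ^ (k - (τ + ρ)))
            * (12 * (V / (t * 2 ^ ρ))) := by rw [Finset.sum_mul]
      _ ≤ (5 / 2) * (12 * (V / (t * 2 ^ ρ))) := by
          refine mul_le_mul_of_nonneg_right ?_ (by positivity)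
          have hq : ((1 : ℝ) - 3 / 5)⁻¹ = 5 / 2 := by norm_num
          rw [← hq]
          refine sum_pow_inj_le _ (fun k => k - (τ + ρ)) ?_ (by norm_num) (by norm_num)
          intro a ha b hb hab
          have ha' := (Finset.mem_filter.mp (Finset.mem_coe.mp ha)).2
          have hb' := (Finset.mem_filter.mp (Finset.mem_coe.mp hb)).2
          have hab' : a - (τ + ρ) = b - (τ + ρ) := hab
          omega
      _ = 30 * (V / (t * 2 ^ ρ)) := by ring
  · calc ∑ k ∈ (range L).filter (fun k => ¬ τ + ρ ≤ k), (4 : ℝ) ^ τ / 4 ^ k * j k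
        ≤ ∑ k ∈ (range L).filter (fun k => ¬ τ + ρ ≤ k),
            (108 / 125 : ℝ) ^ (τ + ρ - k) * (10368 * (2 ^ ρ * J / t ^ 3)) := by
          refine Finset.sum_le_sum fun k hk => ?_
          have hk' := (Finset.mem_filter.mp hk).2
          have hy : τ + ρ = k + (τ + ρ - k) := by omega
          have hh := h2 k
          have ew : wt k (τ + ρ) = (1 / 12) * (5 / 6 : ℝ) ^ (τ + ρ - k) := by
            unfold wt
            congr 2
            omega
          rw [ew] at hh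
          have := level_below ht τ ρ k (τ + ρ - k) hy hh
          linarith
      _ = (∑ k ∈ (range L).filter (fun k => ¬ τ + ρ ≤ k), (108 / 125 : ℝ) ^ (τ + ρ - k))
            * (10368 * (2 ^ ρ * J / t ^ 3)) := by rw [Finset.sum_mul]
      _ ≤ (125 / 17) * (10368 * (2 ^ ρ * J / t ^ 3)) := by
          refine mul_le_mul_of_nonneg_right ?_ (by positivity)
          have hq : ((1 : ℝ) - 108 / 125)⁻¹ = 125 / 17 := by norm_num
          rw [← hq]
          refine sum_pow_inj_le _ (fun k => τ + ρ - k) ?_ (by norm_num) (by norm_num)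
          intro a ha b hb hab
          have ha' := (Finset.mem_filter.mp (Finset.mem_coe.mp ha)).2
          have hb' := (Finset.mem_filter.mp (Finset.mem_coe.mp hb)).2
          have hab' : τ + ρ - a = τ + ρ - b := hab
          omega
      _ ≤ 76300 * (2 ^ ρ * J / t ^ 3) := by
          have : (125 / 17 : ℝ) * 10368 ≤ 76300 := by norm_num
          nlinarith

end Vale.Agent.Lib.P125B
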