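import Vale.Agent.Lib.P125B.Field

/-!
The displacement of the conditional mean.
-/

namespace Vale.Agent.Lib.P125B

open Finset Matrix
open Vale.Agent.Lib.P125

variable {S : Type} [Fintype S] [DecidableEq S] (C : Chain S)

/-- Duality: the mean displacement tested against a field equals an edge expectation. -/
lemma dual_identity (s N R : ℕ) (ξ : ℕ → S → ℕ → ℝ) (F : S → ℕ → ℝ) :
    ∑ z, C.pi z * ∑ i ∈ range N, (∑ ρ ∈ range R, ξ ρ z (i + 1)) *
        (C.av s (fun w => F w i) z - F z i)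
      = -(1 / 2) * ∑ x, ∑ y, C.pi x * C.P x y *
          ∑ i ∈ range N, (∑ ρ ∈ range R, hF C s (ξ ρ) x y (i + 1)) * (F y i - F x i) := by
  have e1 : ∑ z, C.pi z * ∑ i ∈ range N, (∑ ρ ∈ range R, ξ ρ z (i + 1)) *
        (C.av s (fun w => F w i) z - F z i)
      = ∑ i ∈ range N, ∑ ρ ∈ range R, ∑ z, C.pi z * ξ ρ z (i + 1) *
          (C.av s (fun w => F w i) z - F z i) := by
    simp only [Finset.mul_sum, Finset.sum_mul]
    rw [Finset.sum_comm]
    refine Finset.sum_congr rfl fun i _ => ?_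
    rw [Finset.sum_comm]
    refine Finset.sum_congr rfl fun ρ _ => Finset.sum_congr rfl fun z _ => by ring
  have e2 : ∀ i ρ, ∑ z, C.pi z * ξ ρ z (i + 1) * (C.av s (fun w => F w i) z - F z i)
      = -(1 / 2) * ∑ x, ∑ y, C.pi x * C.P x y * (hF C s (ξ ρ) x y (i + 1) * (F y i - F x i)) := by
    intro i ρ
    have := C.displacement_dirichlet s (fun z => ξ ρ z (i + 1)) (fun w => F w i)
    rw [this]
    congr 1
    refine Finset.sum_congr rfl fun x _ => Finset.sum_congr rfl fun y _ => ?_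
    unfold hF Gr
    rw [Finset.sum_sub_distrib]
  rw [e1]
  simp only [e2]
  simp only [← Finset.mul_sum]
  congr 1
  rw [edge_sum_comm C (range N) (fun i x y =>
    (∑ ρ ∈ range R, hF C s (ξ ρ) x y (i + 1)) * (F y i - F x i))]
  refine Finset.sum_congr rfl fun i _ => ?_
  have : ∀ x y, C.pi x * C.P x y * ((∑ ρ ∈ range R, hF C s (ξ ρ) x y (i + 1)) * (F y i - F x i))
      = C.pi x * C.P x y * ∑ ρ ∈ range R, (hF C s (ξ ρ) x y (i + 1) * (F y i - F x i)) := by
    intro x y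
    rw [Finset.sum_mul]
  simp only [this]
  rw [edge_sum_comm C (range R) (fun ρ x y => hF C s (ξ ρ) x y (i + 1) * (F y i - F x i))]

lemma sqrt_le_amgm {a r : ℝ} (ha : 0 ≤ a) (hr : 0 < r) : √a ≤ (a / r + r) / 2 := by
  have h1 : √a * √a = a := Real.mul_self_sqrt ha
  have h2 : a / r + r - 2 * √a = (√a - r) ^ 2 / r := by
    field_simp
    nlinarith
  have h3 : 0 ≤ (√a - r) ^ 2 / r := by positivity
  linarith

lemma edge_total : ∑ x, ∑ y, C.pi x * C.P x y = 1 := by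
  have h := edge_fst C (fun _ => 1)
  simp only [mul_one] at h
  rw [h]
  exact C.pi_sum

/-- The bound for the expectation of a family of edge quantities through Jensen. -/
lemma edge_sqrt {b : S → S → ℝ} (hb : ∀ x y, 0 ≤ b x y) {M r : ℝ} (hr : 0 < r)
    (hM : ∑ x, ∑ y, C.pi x * C.P x y * b x y ≤ M) :
    ∑ x, ∑ y, C.pi x * C.P x y * √(6 * (b x y + 1)) ≤ (6 * (M + 1) / r + r) / 2 := by
  have h1 : ∀ x y, C.pi x * C.P x y * √(6 * (b x y + 1))
      ≤ (6 / r / 2) * (C.pi x * C.P x y * b x y) + ((6 / r + r) / 2) * (C.pi x * C.P x y) := by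
    intro x y
    have hp : 0 ≤ C.pi x * C.P x y := mul_nonneg (C.pi_nonneg x) (C.P_nonneg x y)
    have h2 := sqrt_le_amgm (a := 6 * (b x y + 1)) (by have := hb x y; positivity) hr
    calc C.pi x * C.P x y * √(6 * (b x y + 1))
        ≤ C.pi x * C.P x y * ((6 * (b x y + 1) / r + r) / 2) :=
          mul_le_mul_of_nonneg_left h2 hp
      _ = _ := by field_simp; ring
  calc ∑ x, ∑ y, C.pi x * C.P x y * √(6 * (b x y + 1))
      ≤ ∑ x, ∑ y, ((6 / r / 2) * (C.pi x * C.P x y * b x y)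
          + ((6 / r + r) / 2) * (C.pi x * C.P x y)) :=
        Finset.sum_le_sum fun x _ => Finset.sum_le_sum fun y _ => h1 x y
    _ = (6 / r / 2) * (∑ x, ∑ y, C.pi x * C.P x y * b x y)
          + ((6 / r + r) / 2) * ∑ x, ∑ y, C.pi x * C.P x y := by
        simp only [Finset.sum_add_distrib, ← Finset.mul_sum]
    _ ≤ (6 / r / 2) * M + ((6 / r + r) / 2) * 1 := by
        rw [edge_total]
        have : 0 ≤ 6 / r / 2 := by positivity
        nlinarith
    _ = _ := by field_simp; ring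

/-- The edge estimate for a fixed family of test functions. -/
lemma edge_bound {t : ℝ} (ht : 0 < t) {s N R : ℕ} {φ : S → ℕ → ℕ → ℝ} {F : S → ℕ → ℝ}
    (hF0 : ∀ x y, C.P x y ≠ 0 → xNorm N (fun i => F y i - F x i) ≤ 1)
    (hφ0 : ∀ z, ∀ ρ ∈ range R, φ z ρ 0 = 0) (x y : S) :
    C.pi x * C.P x y *
        |∑ i ∈ range N, (∑ ρ ∈ range R, hF C s (lev φ ρ) x y (i + 1)) * (F y i - F x i)|
      ≤ C.pi x * C.P x y * (3 * t * √(6 * (bnd N R t (fun ρ => hF C s (lev φ ρ) x y)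
          (fun ρ => μF C s (lev φ ρ) x y) + 1))) := by
  by_cases hP : C.P x y = 0
  · simp [hP]
  · refine mul_le_mul_of_nonneg_left ?_ (mul_nonneg (C.pi_nonneg x) (C.P_nonneg x y))
    have h0 : ∀ ρ ∈ range R, hF C s (lev φ ρ) x y 0 = 0 := by
      intro ρ hρ
      have hz : (fun z => lev φ ρ z 0) = fun _ => 0 := by
        funext z
        unfold lev
        rw [hφ0 z ρ hρ]
        simp
      unfold hF
      rw [hz]
      simp [Gr, Chain.av]
    have hb := pairing_bound N R ht (fun ρ => hF C s (lev φ ρ) x y)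
      (fun ρ => μF C s (lev φ ρ) x y) h0 (fun ρ _ i _ => hF_step C s (lev φ ρ) x y i)
      (fun i => F y i - F x i)
    refine hb.trans ?_
    have h1 := hF0 x y hP
    have h2 : 0 ≤ 3 * t * √(6 * (bnd N R t (fun ρ => hF C s (lev φ ρ) x y)
          (fun ρ => μF C s (lev φ ρ) x y) + 1)) := by positivity
    calc _ ≤ 3 * t * √(6 * (bnd N R t (fun ρ => hF C s (lev φ ρ) x y)
          (fun ρ => μF C s (lev φ ρ) x y) + 1)) * 1 := mul_le_mul_of_nonneg_left h1 h2
      _ = _ := mul_one _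

/-- The main bound for a fixed family of test functions. -/
lemma field_bound {u : ℝ} (hu : 1 ≤ u) {s N R : ℕ} (hsu : (s : ℝ) = (u ^ 2) ^ 2)
    {φ : S → ℕ → ℕ → ℝ} {n : S → ℕ → ℕ} {F : S → ℕ → ℝ}
    (hF0 : ∀ x y, C.P x y ≠ 0 → xNorm N (fun i => F y i - F x i) ≤ 1)
    (hφ : ∀ z, ∀ ρ ∈ range R, IsStep (n z ρ) (φ z ρ))
    (hn : ∀ z, ∑ ρ ∈ range R, (n z ρ : ℝ) / 4 ^ ρ ≤ 1) :
    ∑ z, C.pi z * ∑ i ∈ range N, (∑ ρ ∈ range R, lev φ ρ z (i + 1)) *
        (C.av s (fun w => F w i) z - F z i) ≤ 6420 * u ^ 3 := by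
  have hu0 : 0 < u := by linarith
  have ht : 0 < u ^ 2 := by positivity
  rw [dual_identity]
  set Q : S → S → ℝ := fun x y =>
    ∑ i ∈ range N, (∑ ρ ∈ range R, hF C s (lev φ ρ) x y (i + 1)) * (F y i - F x i) with hQ
  set b : S → S → ℝ := fun x y => bnd N R (u ^ 2) (fun ρ => hF C s (lev φ ρ) x y)
          (fun ρ => μF C s (lev φ ρ) x y) with hb
  have hb0 : ∀ x y, 0 ≤ b x y := fun x y =>
    bnd_nonneg ht (fun ρ _ i _ => hF_step C s (lev φ ρ) x y i)
  have hE : ∑ x, ∑ y, C.pi x * C.P x y * b x y ≤ 3052120 * u ^ 2 := E_bnd C ht hsu hφ hn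
  have hJ := edge_sqrt C hb0 (r := 4280 * u) (by positivity) hE
  have hJ2 : (6 * (3052120 * u ^ 2 + 1) / (4280 * u) + 4280 * u) / 2 ≤ 4280 * u := by
    have h1 : 6 * (3052120 * u ^ 2 + 1) ≤ 4280 * u * (4280 * u) := by nlinarith
    have h2 : 6 * (3052120 * u ^ 2 + 1) / (4280 * u) ≤ 4280 * u := by
      rw [div_le_iff₀ (by positivity)]
      exact h1
    linarith
  have hφ0 : ∀ z, ∀ ρ ∈ range R, φ z ρ 0 = 0 := fun z ρ hρ => (hφ z ρ hρ).1
  have hedge : ∀ x y, C.pi x * C.P x y * |Q x y|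
      ≤ 3 * u ^ 2 * (C.pi x * C.P x y * √(6 * (b x y + 1))) := by
    intro x y
    have := edge_bound C ht (s := s) (N := N) hF0 hφ0 x y
    calc C.pi x * C.P x y * |Q x y| ≤ _ := this
      _ = _ := by simp only [hb]; ring
  have hsum : ∑ x, ∑ y, C.pi x * C.P x y * |Q x y| ≤ 3 * u ^ 2 * (4280 * u) := by
    calc ∑ x, ∑ y, C.pi x * C.P x y * |Q x y|
        ≤ ∑ x, ∑ y, 3 * u ^ 2 * (C.pi x * C.P x y * √(6 * (b x y + 1))) :=
          Finset.sum_le_sum fun x _ => Finset.sum_le_sum fun y _ => hedge x y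
      _ = 3 * u ^ 2 * ∑ x, ∑ y, C.pi x * C.P x y * √(6 * (b x y + 1)) := by
          simp only [← Finset.mul_sum]
      _ ≤ 3 * u ^ 2 * (4280 * u) :=
          mul_le_mul_of_nonneg_left (hJ.trans hJ2) (by positivity)
  have habs : -(∑ x, ∑ y, C.pi x * C.P x y * Q x y) ≤ ∑ x, ∑ y, C.pi x * C.P x y * |Q x y| := by
    rw [← Finset.sum_neg_distrib]
    refine Finset.sum_le_sum fun x _ => ?_
    rw [← Finset.sum_neg_distrib]
    refine Finset.sum_le_sum fun y _ => ?_
    have hp : 0 ≤ C.pi x * C.P x y := mul_nonneg (C.pi_nonneg x) (C.P_nonneg x y)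
    have := neg_abs_le (Q x y)
    nlinarith
  have e : (6420 : ℝ) * u ^ 3 = 1 / 2 * (3 * u ^ 2 * (4280 * u)) := by ring
  rw [e]
  linarith

/-- **The displacement of the conditional mean**: for every finite stationary reversible chain and
every map `F` into `ℝ^N` moving at most one in the norm `xNorm N` along each edge,
the mean over `z` of the norm of `E[F(Z_s) | Z_0 = z] - F(z)` is at most `6420 s^(3/4)`. -/
theorem mean_bound (N : ℕ) (F : S → ℕ → ℝ)
    (hF0 : ∀ x y, C.P x y ≠ 0 → xNorm N (fun i => F y i - F x i) ≤ 1) (s : ℕ) (hs : 1 ≤ s) :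
    ∑ z, C.pi z * xNorm N (fun i => C.av s (fun w => F w i) z - F z i)
      ≤ 6420 * (s : ℝ) ^ (3 / 4 : ℝ) := by
  classical
  set u : ℝ := (s : ℝ) ^ (1 / 4 : ℝ) with hu
  have hs1 : (1 : ℝ) ≤ s := by exact_mod_cast hs
  have hu1 : 1 ≤ u := Real.one_le_rpow hs1 (by norm_num)
  have hsu : (s : ℝ) = (u ^ 2) ^ 2 := by
    rw [hu, ← pow_mul, ← Real.rpow_natCast, ← Real.rpow_mul (by positivity)]
    norm_num
  have hu3 : (s : ℝ) ^ (3 / 4 : ℝ) = u ^ 3 := by
    rw [hu, ← Real.rpow_natCast, ← Real.rpow_mul (by positivity)]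
    norm_num
  rw [hu3]
  refine le_of_forall_pos_le_add fun ε hε => ?_
  choose ψ hψ hψ' using fun z => exists_near (N := N)
    (fun i => C.av s (fun w => F w i) z - F z i) hε
  choose R₀ hR₀ using fun z => (hψ z).rep
  set R := Finset.univ.sup R₀ with hRdef
  have hR : ∀ z, R₀ z ≤ R := fun z => Finset.le_sup (Finset.mem_univ z)
  choose n φ hφ hn hψi using fun z => hR₀ z R (hR z)
  have hmain := field_bound C hu1 hsu hF0 hφ hn
  have hpair : ∀ z, pair N (ψ z) (fun i => C.av s (fun w => F w i) z - F z i)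
      = ∑ i ∈ range N, (∑ ρ ∈ range R, lev φ ρ z (i + 1)) * (C.av s (fun w => F w i) z - F z i) := by
    intro z
    unfold pair
    refine Finset.sum_congr rfl fun i _ => ?_
    rw [hψi z (i + 1)]
    rfl
  calc ∑ z, C.pi z * xNorm N (fun i => C.av s (fun w => F w i) z - F z i)
      ≤ ∑ z, C.pi z * (pair N (ψ z) (fun i => C.av s (fun w => F w i) z - F z i) + ε) :=
        Finset.sum_le_sum fun z _ => mul_le_mul_of_nonneg_left (hψ' z).le (C.pi_nonneg z)
    _ = ∑ z, C.pi z * ∑ i ∈ range N, (∑ ρ ∈ range R, lev φ ρ z (i + 1)) *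
            (C.av s (fun w => F w i) z - F z i) + ε := by
        simp only [hpair, mul_add, Finset.sum_add_distrib, ← Finset.sum_mul, C.pi_sum, one_mul]
    _ ≤ 6420 * u ^ 3 + ε := by linarith

end Vale.Agent.Lib.P125B
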