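import Vale.Agent.Lib.P125B.Defs

namespace Vale.Agent.Lib.P125B

open Finset

lemma IsStep.zero : IsStep 0 (fun _ => 0) :=
  ⟨rfl, fun _ => by simp, ∅, by simp, fun _ h => absurd rfl h⟩

lemma IsStep.neg {n : ℕ} {ψ : ℕ → ℝ} (h : IsStep n ψ) : IsStep n (fun i => - ψ i) := by
  obtain ⟨h0, h1, T, hT, hj⟩ := h
  refine ⟨by simp [h0], fun i => by simpa using h1 i, T, hT, fun i hi => hj i ?_⟩
  intro e
  apply hi
  simp [e]

lemma sum_half_pow_le (R : ℕ) : ∑ ρ ∈ range R, ((1 : ℝ) / 2 ^ ρ) ≤ 2 := by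
  have h : ∀ R : ℕ, ∑ ρ ∈ range R, ((1 : ℝ) / 2 ^ ρ) = 2 - 2 / 2 ^ R := by
    intro R
    induction R with
    | zero => simp
    | succ R ih =>
      rw [Finset.sum_range_succ, ih, pow_succ]
      field_simp
      ring
  rw [h]
  have : (0 : ℝ) ≤ 2 / 2 ^ R := by positivity
  linarith

lemma InBall.bound {ψ : ℕ → ℝ} (h : InBall ψ) (i : ℕ) : |ψ i| ≤ 2 := by
  obtain ⟨R, n, φ, hφ, -, hψ⟩ := h
  rw [hψ]
  calc |∑ ρ ∈ range R, φ ρ i / 2 ^ ρ| ≤ ∑ ρ ∈ range R, |φ ρ i / 2 ^ ρ| :=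
        Finset.abs_sum_le_sum_abs _ _
    _ ≤ ∑ ρ ∈ range R, ((1 : ℝ) / 2 ^ ρ) := by
        refine Finset.sum_le_sum fun ρ hρ => ?_
        rw [abs_div, abs_of_pos (by positivity : (0 : ℝ) < 2 ^ ρ)]
        exact div_le_div_of_nonneg_right ((hφ ρ hρ).2.1 i) (by positivity)
    _ ≤ 2 := sum_half_pow_le R

lemma InBall.neg {ψ : ℕ → ℝ} (h : InBall ψ) : InBall (fun i => - ψ i) := by
  obtain ⟨R, n, φ, hφ, hn, hψ⟩ := h
  refine ⟨R, n, fun ρ i => - φ ρ i, fun ρ hρ => (hφ ρ hρ).neg, hn, fun i => ?_⟩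
  show - ψ i = ∑ ρ ∈ range R, - φ ρ i / 2 ^ ρ
  rw [hψ, ← Finset.sum_neg_distrib]
  exact Finset.sum_congr rfl fun ρ _ => by ring

lemma InBall.zero : InBall (fun _ => 0) :=
  ⟨0, fun _ => 0, fun _ _ => 0, by simp, by simp, by simp⟩

/-- A representation with any larger number of levels. -/
lemma InBall.rep {ψ : ℕ → ℝ} (h : InBall ψ) : ∃ R₀ : ℕ, ∀ R, R₀ ≤ R →
    ∃ (n : ℕ → ℕ) (φ : ℕ → ℕ → ℝ),
      (∀ ρ ∈ range R, IsStep (n ρ) (φ ρ)) ∧
      ∑ ρ ∈ range R, (n ρ : ℝ) / 4 ^ ρ ≤ 1 ∧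
      ∀ i, ψ i = ∑ ρ ∈ range R, φ ρ i / 2 ^ ρ := by
  obtain ⟨R₀, n, φ, hφ, hn, hψ⟩ := h
  refine ⟨R₀, fun R hR => ⟨fun ρ => if ρ < R₀ then n ρ else 0,
    fun ρ i => if ρ < R₀ then φ ρ i else 0, ?_, ?_, ?_⟩⟩
  · intro ρ _
    by_cases hρ : ρ < R₀
    · simp only [hρ, if_true]
      exact hφ ρ (Finset.mem_range.mpr hρ)
    · simp only [hρ, if_false]
      exact IsStep.zero
  · have hsub : range R₀ ⊆ range R := Finset.range_subset_range.mpr hR
    rw [← Finset.sum_subset hsub]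
    · calc ∑ x ∈ range R₀, ((if x < R₀ then n x else 0 : ℕ) : ℝ) / 4 ^ x
          = ∑ x ∈ range R₀, (n x : ℝ) / 4 ^ x := by
            refine Finset.sum_congr rfl fun x hx => ?_
            simp [Finset.mem_range.mp hx]
        _ ≤ 1 := hn
    · intro x _ hx
      have : ¬ x < R₀ := fun h => hx (Finset.mem_range.mpr h)
      simp [this]
  · intro i
    have hsub : range R₀ ⊆ range R := Finset.range_subset_range.mpr hR
    rw [← Finset.sum_subset hsub]
    · rw [hψ]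
      refine Finset.sum_congr rfl fun x hx => ?_
      simp [Finset.mem_range.mp hx]
    · intro x _ hx
      have : ¬ x < R₀ := fun h => hx (Finset.mem_range.mpr h)
      simp [this]

lemma pair_abs_le {N : ℕ} {ψ : ℕ → ℝ} (h : InBall ψ) (g : ℕ → ℝ) :
    |pair N ψ g| ≤ 2 * ∑ i ∈ range N, |g i| := by
  unfold pair
  calc |∑ i ∈ range N, ψ (i + 1) * g i| ≤ ∑ i ∈ range N, |ψ (i + 1) * g i| :=
        Finset.abs_sum_le_sum_abs _ _
    _ ≤ ∑ i ∈ range N, 2 * |g i| := by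
        refine Finset.sum_le_sum fun i _ => ?_
        rw [abs_mul]
        exact mul_le_mul_of_nonneg_right (h.bound _) (abs_nonneg _)
    _ = 2 * ∑ i ∈ range N, |g i| := by rw [Finset.mul_sum]

lemma bdd (N : ℕ) (g : ℕ → ℝ) : BddAbove {c | ∃ ψ, InBall ψ ∧ c = pair N ψ g} := by
  refine ⟨2 * ∑ i ∈ range N, |g i|, ?_⟩
  rintro c ⟨ψ, hψ, rfl⟩
  exact (le_abs_self _).trans (pair_abs_le hψ g)

lemma nonempty_set (N : ℕ) (g : ℕ → ℝ) : {c | ∃ ψ, InBall ψ ∧ c = pair N ψ g}.Nonempty :=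
  ⟨_, _, InBall.zero, rfl⟩

lemma pair_le_xNorm {N : ℕ} {ψ : ℕ → ℝ} (h : InBall ψ) (g : ℕ → ℝ) :
    pair N ψ g ≤ xNorm N g :=
  le_csSup (bdd N g) ⟨ψ, h, rfl⟩

lemma pair_neg (N : ℕ) (ψ g : ℕ → ℝ) : pair N (fun i => - ψ i) g = - pair N ψ g := by
  unfold pair
  rw [← Finset.sum_neg_distrib]
  exact Finset.sum_congr rfl fun i _ => by ring

lemma abs_pair_le_xNorm {N : ℕ} {ψ : ℕ → ℝ} (h : InBall ψ) (g : ℕ → ℝ) :
    |pair N ψ g| ≤ xNorm N g := by
  rw [abs_le]
  constructor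
  · have := pair_le_xNorm (N := N) h.neg g
    rw [pair_neg] at this
    linarith
  · exact pair_le_xNorm h g

lemma xNorm_nonneg (N : ℕ) (g : ℕ → ℝ) : 0 ≤ xNorm N g :=
  (abs_nonneg _).trans (abs_pair_le_xNorm (N := N) InBall.zero g)

lemma xNorm_le {N : ℕ} {g : ℕ → ℝ} {c : ℝ} (h : ∀ ψ, InBall ψ → pair N ψ g ≤ c) :
    xNorm N g ≤ c := by
  refine csSup_le (nonempty_set N g) ?_
  rintro d ⟨ψ, hψ, rfl⟩
  exact h ψ hψ

lemma xNorm_le_l1 (N : ℕ) (g : ℕ → ℝ) : xNorm N g ≤ 2 * ∑ i ∈ range N, |g i| :=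
  xNorm_le fun _ hψ => (le_abs_self _).trans (pair_abs_le hψ g)

lemma exists_near {N : ℕ} (g : ℕ → ℝ) {ε : ℝ} (hε : 0 < ε) :
    ∃ ψ, InBall ψ ∧ xNorm N g < pair N ψ g + ε := by
  have : xNorm N g - ε < sSup {c | ∃ ψ, InBall ψ ∧ c = pair N ψ g} := by
    unfold xNorm; linarith
  obtain ⟨c, ⟨ψ, hψ, rfl⟩, hc⟩ := exists_lt_of_lt_csSup (nonempty_set N g) this
  exact ⟨ψ, hψ, by linarith⟩

/-- The norm dominates the initial sums: the summing operator has norm at most `2` from this norm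
to the sup norm. -/
lemma prefix_le_xNorm {N k : ℕ} (hk : k ≤ N) (g : ℕ → ℝ) :
    |∑ i ∈ range k, g i| ≤ 2 * xNorm N g := by
  classical
  let χ : ℕ → ℝ := fun j => if 1 ≤ j ∧ j ≤ k then 1 else 0
  have hχ : IsStep 2 χ := by
    refine ⟨by simp [χ], fun i => ?_, {0, k}, ?_, ?_⟩
    · simp only [χ]
      split_ifs <;> simp
    · exact Finset.card_le_two
    · intro i hi
      by_contra hnot
      simp only [Finset.mem_insert, Finset.mem_singleton, not_or] at hnot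
      apply hi
      simp only [χ]
      obtain ⟨h1, h2⟩ := hnot
      have e2 : (1 ≤ i ∧ i ≤ k) ↔ i + 1 ≤ k := by omega
      simp [e2]
  have hball : InBall (fun j => χ j / 2) := by
    refine ⟨2, fun ρ => if ρ = 1 then 2 else 0, fun ρ i => if ρ = 1 then χ i else 0, ?_, ?_, ?_⟩
    · intro ρ _
      by_cases h : ρ = 1
      · simp only [h, if_true]
        exact hχ
      · simp only [h, if_false]
        exact IsStep.zero
    · simp [Finset.sum_range_succ]
      norm_num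
    · intro i
      simp [Finset.sum_range_succ]
  have hp : pair N (fun j => χ j / 2) g = (∑ i ∈ range k, g i) / 2 := by
    unfold pair
    have hsub : range k ⊆ range N := Finset.range_subset_range.mpr hk
    rw [← Finset.sum_subset hsub, Finset.sum_div]
    · refine Finset.sum_congr rfl fun i hi => ?_
      have hi' := Finset.mem_range.mp hi
      have : 1 ≤ i + 1 ∧ i + 1 ≤ k := by omega
      simp only [χ, this, and_self, if_true]
      ring
    · intro i _ hi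
      have hi' : ¬ (1 ≤ i + 1 ∧ i + 1 ≤ k) := by
        intro h
        exact hi (Finset.mem_range.mpr (by omega))
      have : χ (i + 1) = 0 := if_neg hi'
      simp only [this]
      ring
  have := abs_pair_le_xNorm (N := N) hball g
  rw [hp, abs_div] at this
  have h2 : |(2 : ℝ)| = 2 := abs_of_pos (by norm_num)
  rw [h2] at this
  linarith

lemma pair_add (N : ℕ) (ψ g g' : ℕ → ℝ) :
    pair N ψ (fun i => g i + g' i) = pair N ψ g + pair N ψ g' := by
  unfold pair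
  rw [← Finset.sum_add_distrib]
  exact Finset.sum_congr rfl fun i _ => by ring

lemma pair_smul (N : ℕ) (ψ g : ℕ → ℝ) (c : ℝ) :
    pair N ψ (fun i => c * g i) = c * pair N ψ g := by
  unfold pair
  rw [Finset.mul_sum]
  exact Finset.sum_congr rfl fun i _ => by ring

lemma xNorm_add_le (N : ℕ) (g g' : ℕ → ℝ) :
    xNorm N (fun i => g i + g' i) ≤ xNorm N g + xNorm N g' :=
  xNorm_le fun ψ hψ => by
    rw [pair_add]
    exact add_le_add (pair_le_xNorm hψ g) (pair_le_xNorm hψ g')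

lemma xNorm_smul_le (N : ℕ) (g : ℕ → ℝ) (c : ℝ) :
    xNorm N (fun i => c * g i) ≤ |c| * xNorm N g :=
  xNorm_le fun ψ hψ => by
    rw [pair_smul]
    calc c * pair N ψ g ≤ |c * pair N ψ g| := le_abs_self _
      _ = |c| * |pair N ψ g| := abs_mul _ _
      _ ≤ |c| * xNorm N g := mul_le_mul_of_nonneg_left (abs_pair_le_xNorm hψ g) (abs_nonneg _)

lemma xNorm_smul (N : ℕ) (g : ℕ → ℝ) (c : ℝ) :
    xNorm N (fun i => c * g i) = |c| * xNorm N g := by
  refine le_antisymm (xNorm_smul_le N g c) ?_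
  by_cases hc : c = 0
  · subst hc
    simp only [abs_zero, zero_mul]
    exact xNorm_nonneg _ _
  · have h := xNorm_smul_le N (fun i => c * g i) c⁻¹
    have e : (fun i => c⁻¹ * (c * g i)) = g := by
      funext i
      field_simp
    rw [e] at h
    rw [abs_inv] at h
    have hc' : 0 < |c| := abs_pos.mpr hc
    have := mul_le_mul_of_nonneg_left h hc'.le
    rw [← mul_assoc, mul_inv_cancel₀ hc'.ne', one_mul] at this
    exact this

/-- The norm of a finite linear combination. -/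
lemma xNorm_sum_le {ι : Type} (I : Finset ι) (N : ℕ) (c : ι → ℝ) (g : ι → ℕ → ℝ) :
    xNorm N (fun i => ∑ a ∈ I, c a * g a i) ≤ ∑ a ∈ I, |c a| * xNorm N (g a) :=
  xNorm_le fun ψ hψ => by
    have e : pair N ψ (fun i => ∑ a ∈ I, c a * g a i) = ∑ a ∈ I, c a * pair N ψ (g a) := by
      unfold pair
      simp only [Finset.mul_sum]
      rw [Finset.sum_comm]
      refine Finset.sum_congr rfl fun a _ => Finset.sum_congr rfl fun i _ => by ring
    rw [e]
    refine Finset.sum_le_sum fun a _ => ?_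
    calc c a * pair N ψ (g a) ≤ |c a * pair N ψ (g a)| := le_abs_self _
      _ = |c a| * |pair N ψ (g a)| := abs_mul _ _
      _ ≤ |c a| * xNorm N (g a) :=
          mul_le_mul_of_nonneg_left (abs_pair_le_xNorm hψ _) (abs_nonneg _)

/-- The norm only depends on the first `N` coordinates. -/
lemma xNorm_congr {N : ℕ} {g g' : ℕ → ℝ} (h : ∀ i < N, g i = g' i) : xNorm N g = xNorm N g' := by
  have e : ∀ ψ, pair N ψ g = pair N ψ g' := fun ψ =>
    Finset.sum_congr rfl fun i hi => by rw [h i (Finset.mem_range.mp hi)]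
  unfold xNorm
  simp only [e]

end Vale.Agent.Lib.P125B
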