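import Vale.Agent.Lib.P125B.Levels

/-!
The pairing bound: a sum of functions with controlled increments is a multiple of a test function.
-/

namespace Vale.Agent.Lib.P125B

open Finset

/-- Assembling a test function from step approximations at dyadic accuracies. -/
lemma assemble {N L : ℕ} {H : ℕ → ℝ} {f : ℕ → ℕ → ℝ} {D : ℕ → ℝ} {Nn : ℕ → ℕ} {T : ℕ → Finset ℕ}
    (hD : ∀ k, 0 < D k) (hDs : ∀ k, D (k + 1) = D k / 2)
    (F1 : ∀ k i, |H i - f k i| ≤ D k) (F2 : ∀ k, f k 0 = 0) (H0 : H 0 = 0)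
    (F3 : ∀ k i, f k (i + 1) ≠ f k i → i ∈ T k) (hTc : ∀ k, (T k).card ≤ Nn k)
    (hfN : ∀ k i, N ≤ i → f k (i + 1) = f k i) (hHN : ∀ i, N ≤ i → H (i + 1) = H i)
    (hf0 : ∀ i, f 0 i = 0)
    (hW : ∑ k ∈ range (L + 1), (Nn k : ℝ) / 4 ^ k ≤ 1 / 6) (hL : 6 * (N : ℝ) < 4 ^ L) :
    ∃ ψ, InBall ψ ∧ ∀ i, H i = (3 / 2 * D 0) * ψ i := by
  classical
  let φ : ℕ → ℕ → ℝ := fun k i =>
    if k = L then (H i - f L i) / (3 / 2 * D L) else (f (k + 1) i - f k i) / (3 / 2 * D k)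
  let m : ℕ → ℕ := fun k => if k = L then N else Nn k + Nn (k + 1)
  have hstep : ∀ k ∈ range (L + 1), IsStep (m k) (φ k) := by
    intro k _
    by_cases hk : k = L
    · subst hk
      simp only [φ, m, if_true]
      refine ⟨by simp [H0, F2], fun i => ?_, range N, by simp, fun i hi => ?_⟩
      · rw [abs_div, abs_of_pos (by have := hD k; positivity : 0 < 3 / 2 * D k),
          div_le_one (by have := hD k; positivity)]
        have := F1 k i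
        have := hD k
        linarith
      · by_contra hcon
        have hNi : N ≤ i := by
          simpa using hcon
        apply hi
        simp only [hHN i hNi, hfN k i hNi]
    · simp only [φ, m, hk, if_false]
      refine ⟨by simp [F2], fun i => ?_, T (k + 1) ∪ T k, ?_, fun i hi => ?_⟩
      · rw [abs_div, abs_of_pos (by have := hD k; positivity : 0 < 3 / 2 * D k),
          div_le_one (by have := hD k; positivity)]
        have h1 := F1 k i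
        have h2 := F1 (k + 1) i
        rw [hDs] at h2
        have e : f (k + 1) i - f k i = (H i - f k i) - (H i - f (k + 1) i) := by ring
        rw [e]
        have := abs_sub (H i - f k i) (H i - f (k + 1) i)
        linarith
      · calc (T (k + 1) ∪ T k).card ≤ (T (k + 1)).card + (T k).card := Finset.card_union_le _ _
          _ ≤ Nn (k + 1) + Nn k := add_le_add (hTc _) (hTc _)
          _ = Nn k + Nn (k + 1) := add_comm _ _
      · by_cases h1 : f (k + 1) (i + 1) = f (k + 1) i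
        · have h2 : f k (i + 1) ≠ f k i := by
            intro h3
            apply hi
            simp only [h1, h3]
          exact Finset.mem_union_right _ (F3 k i h2)
        · exact Finset.mem_union_left _ (F3 (k + 1) i h1)
  have hsumm : ∑ k ∈ range (L + 1), (m k : ℝ) / 4 ^ k ≤ 1 := by
    rw [Finset.sum_range_succ]
    have e1 : ∑ k ∈ range L, (m k : ℝ) / 4 ^ k
        = ∑ k ∈ range L, (Nn k : ℝ) / 4 ^ k + 4 * ∑ k ∈ range L, (Nn (k + 1) : ℝ) / 4 ^ (k + 1) := by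
      rw [Finset.mul_sum, ← Finset.sum_add_distrib]
      refine Finset.sum_congr rfl fun k hk => ?_
      have hk' : k ≠ L := (Finset.mem_range.mp hk).ne
      simp only [m, hk', if_false]
      push_cast
      rw [pow_succ]
      field_simp
    have e2 : ∑ k ∈ range L, (Nn k : ℝ) / 4 ^ k ≤ 1 / 6 := by
      rw [Finset.sum_range_succ] at hW
      have : (0 : ℝ) ≤ (Nn L : ℝ) / 4 ^ L := by positivity
      linarith
    have e3 : ∑ k ∈ range L, (Nn (k + 1) : ℝ) / 4 ^ (k + 1) ≤ 1 / 6 := by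
      rw [Finset.sum_range_succ'] at hW
      have : (0 : ℝ) ≤ (Nn 0 : ℝ) / 4 ^ 0 := by positivity
      linarith
    have e4 : (m L : ℝ) / 4 ^ L ≤ 1 / 6 := by
      simp only [m, if_true]
      rw [div_le_iff₀ (by positivity)]
      linarith
    rw [e1]
    linarith
  let ψ : ℕ → ℝ := fun i => ∑ k ∈ range (L + 1), φ k i / 2 ^ k
  refine ⟨ψ, ⟨L + 1, m, φ, hstep, hsumm, fun _ => rfl⟩, fun i => ?_⟩
  have hDk : ∀ k, D 0 = D k * 2 ^ k := by
    intro k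
    induction k with
    | zero => simp
    | succ k ih => rw [ih, hDs, pow_succ]; ring
  have hterm : ∀ k ∈ range L, (3 / 2 * D 0) * (φ k i / 2 ^ k) = f (k + 1) i - f k i := by
    intro k hk
    have hk' : k ≠ L := (Finset.mem_range.mp hk).ne
    have := hD k
    simp only [φ, hk', if_false]
    rw [hDk k]
    field_simp
  have hlast : (3 / 2 * D 0) * (φ L i / 2 ^ L) = H i - f L i := by
    have := hD L
    simp only [φ, if_true]
    rw [hDk L]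
    field_simp
  simp only [ψ]
  rw [Finset.mul_sum, Finset.sum_range_succ, hlast, Finset.sum_congr rfl hterm,
    Finset.sum_range_sub (fun k => f k i) L, hf0]
  ring

/-- The total mass of `μ`. -/
noncomputable def Vv (N : ℕ) (μ : ℕ → ℝ) : ℝ := ∑ i ∈ range N, μ i

/-- The quadratic functional of `h` against `μ`. -/
noncomputable def Jj (N : ℕ) (h μ : ℕ → ℝ) : ℝ := ∑ i ∈ range N, (h (i + 1) ^ 2 + h i ^ 2) * μ i

/-- The scale free size of a family of functions. -/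
noncomputable def bnd (N R : ℕ) (t : ℝ) (hh μ : ℕ → ℕ → ℝ) : ℝ :=
  ∑ ρ ∈ range R, (30 * (Vv N (μ ρ) / (t * 2 ^ ρ)) + 76300 * (2 ^ ρ * Jj N (hh ρ) (μ ρ) / t ^ 3))

/-- The accuracy at level `k`. -/
noncomputable def Dl (t : ℝ) (τ k : ℕ) : ℝ := t * 2 ^ τ / 2 ^ k

/-- The accuracy at level `k` for the function number `ρ`. -/
noncomputable def dl (t : ℝ) (τ k ρ : ℕ) : ℝ := Dl t τ k * wt k (τ + ρ)

/-- The approximation at level `k`. -/
noncomputable def af (N R : ℕ) (hh : ℕ → ℕ → ℝ) (t : ℝ) (τ k i : ℕ) : ℝ :=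
  ∑ ρ ∈ range R, greedy (hh ρ) (dl t τ k ρ) (min i N)

/-- The truncated sum. -/
noncomputable def Hf (N R : ℕ) (hh : ℕ → ℕ → ℝ) (i : ℕ) : ℝ := ∑ ρ ∈ range R, hh ρ (min i N)

/-- The jump count at level `k`. -/
noncomputable def Nc (N R : ℕ) (hh : ℕ → ℕ → ℝ) (t : ℝ) (τ k : ℕ) : ℕ :=
  ∑ ρ ∈ range R, (jset (hh ρ) (dl t τ k ρ) N).card

/-- The jump set at level `k`. -/
noncomputable def Tc (N R : ℕ) (hh : ℕ → ℕ → ℝ) (t : ℝ) (τ k : ℕ) : Finset ℕ :=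
  (range R).biUnion fun ρ => jset (hh ρ) (dl t τ k ρ) N

lemma Dl_pos {t : ℝ} (ht : 0 < t) (τ k : ℕ) : 0 < Dl t τ k := by
  unfold Dl; positivity

lemma dl_pos {t : ℝ} (ht : 0 < t) (τ k ρ : ℕ) : 0 < dl t τ k ρ :=
  mul_pos (Dl_pos ht τ k) (wt_pos _ _)

lemma Dl_succ (t : ℝ) (τ k : ℕ) : Dl t τ (k + 1) = Dl t τ k / 2 := by
  unfold Dl
  rw [pow_succ]
  field_simp

lemma af_approx {N R : ℕ} {hh : ℕ → ℕ → ℝ} {t : ℝ} (ht : 0 < t)
    (h0 : ∀ ρ ∈ range R, hh ρ 0 = 0) (τ k i : ℕ) :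
    |Hf N R hh i - af N R hh t τ k i| ≤ Dl t τ k := by
  have e : Hf N R hh i - af N R hh t τ k i
      = ∑ ρ ∈ range R, (hh ρ (min i N) - greedy (hh ρ) (dl t τ k ρ) (min i N)) := by
    unfold Hf af
    rw [Finset.sum_sub_distrib]
  rw [e]
  calc |∑ ρ ∈ range R, (hh ρ (min i N) - greedy (hh ρ) (dl t τ k ρ) (min i N))|
      ≤ ∑ ρ ∈ range R, |hh ρ (min i N) - greedy (hh ρ) (dl t τ k ρ) (min i N)| :=
        Finset.abs_sum_le_sum_abs _ _
    _ ≤ ∑ ρ ∈ range R, dl t τ k ρ :=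
        Finset.sum_le_sum fun ρ hρ => abs_sub_greedy_le (h0 ρ hρ) (dl_pos ht τ k ρ).le _
    _ = Dl t τ k * ∑ ρ ∈ range R, wt k (τ + ρ) := by
        unfold dl
        rw [Finset.mul_sum]
    _ ≤ Dl t τ k * 1 := mul_le_mul_of_nonneg_left (wt_sum k τ R) (Dl_pos ht τ k).le
    _ = Dl t τ k := mul_one _

lemma af_zero (N R : ℕ) (hh : ℕ → ℕ → ℝ) (t : ℝ) (τ k : ℕ) : af N R hh t τ k 0 = 0 := by
  refine Finset.sum_eq_zero fun ρ _ => ?_
  rw [Nat.zero_min]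
  exact greedy_zero _ _

lemma Hf_zero {N R : ℕ} {hh : ℕ → ℕ → ℝ} (h0 : ∀ ρ ∈ range R, hh ρ 0 = 0) : Hf N R hh 0 = 0 := by
  refine Finset.sum_eq_zero fun ρ hρ => ?_
  rw [Nat.zero_min]
  exact h0 ρ hρ

lemma af_jump {N R : ℕ} {hh : ℕ → ℕ → ℝ} {t : ℝ} {τ k i : ℕ}
    (hne : af N R hh t τ k (i + 1) ≠ af N R hh t τ k i) : i ∈ Tc N R hh t τ k := by
  have : ∃ ρ ∈ range R, greedy (hh ρ) (dl t τ k ρ) (min (i + 1) N)
      ≠ greedy (hh ρ) (dl t τ k ρ) (min i N) := by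
    by_contra hcon
    push Not at hcon
    exact hne (Finset.sum_congr rfl hcon)
  obtain ⟨ρ, hρ, hρne⟩ := this
  exact Finset.mem_biUnion.mpr ⟨ρ, hρ, jump_mem hρne⟩

lemma Tc_card (N R : ℕ) (hh : ℕ → ℕ → ℝ) (t : ℝ) (τ k : ℕ) :
    (Tc N R hh t τ k).card ≤ Nc N R hh t τ k := Finset.card_biUnion_le

lemma af_beyond (N R : ℕ) (hh : ℕ → ℕ → ℝ) (t : ℝ) (τ k i : ℕ) (hi : N ≤ i) :
    af N R hh t τ k (i + 1) = af N R hh t τ k i := by
  refine Finset.sum_congr rfl fun ρ _ => ?_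
  rw [min_eq_right (by omega : N ≤ i + 1), min_eq_right hi]

lemma Hf_beyond (N R : ℕ) (hh : ℕ → ℕ → ℝ) (i : ℕ) (hi : N ≤ i) :
    Hf N R hh (i + 1) = Hf N R hh i := by
  refine Finset.sum_congr rfl fun ρ _ => ?_
  rw [min_eq_right (by omega : N ≤ i + 1), min_eq_right hi]

lemma Nc_count {N R : ℕ} {t : ℝ} (ht : 0 < t) {hh μ : ℕ → ℕ → ℝ}
    (h0 : ∀ ρ ∈ range R, hh ρ 0 = 0)
    (hμ : ∀ ρ ∈ range R, ∀ i ∈ range N, |hh ρ (i + 1) - hh ρ i| ≤ μ ρ i) (τ L : ℕ) :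
    ∑ k ∈ range L, (4 : ℝ) ^ τ / 4 ^ k * (Nc N R hh t τ k : ℝ) ≤ bnd N R t hh μ := by
  have hμ0 : ∀ ρ ∈ range R, ∀ i ∈ range N, 0 ≤ μ ρ i :=
    fun ρ hρ i hi => (abs_nonneg _).trans (hμ ρ hρ i hi)
  have e : ∑ k ∈ range L, (4 : ℝ) ^ τ / 4 ^ k * (Nc N R hh t τ k : ℝ)
      = ∑ ρ ∈ range R, ∑ k ∈ range L, (4 : ℝ) ^ τ / 4 ^ k
          * ((jset (hh ρ) (dl t τ k ρ) N).card : ℝ) := by
    rw [Finset.sum_comm]
    refine Finset.sum_congr rfl fun k _ => ?_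
    unfold Nc
    push_cast
    rw [Finset.mul_sum]
  rw [e]
  refine Finset.sum_le_sum fun ρ hρ => ?_
  have hV : 0 ≤ Vv N (μ ρ) := Finset.sum_nonneg fun i hi => hμ0 ρ hρ i hi
  have hJ : 0 ≤ Jj N (hh ρ) (μ ρ) :=
    Finset.sum_nonneg fun i hi => mul_nonneg (by positivity) (hμ0 ρ hρ i hi)
  refine levels_sum ht hV hJ τ ρ L (fun k => ((jset (hh ρ) (dl t τ k ρ) N).card : ℝ)) ?_ ?_
  · intro k
    have := jset_linear (μ := μ ρ) (dl_pos ht τ k ρ).le N (hμ ρ hρ) (h0 ρ hρ)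
    have h2 := abs_nonneg (hh ρ N - greedy (hh ρ) (dl t τ k ρ) N)
    show ((jset (hh ρ) (dl t τ k ρ) N).card : ℝ) * dl t τ k ρ ≤ Vv N (μ ρ)
    unfold Vv
    linarith
  · intro k
    have := jset_cubic (μ := μ ρ) (dl_pos ht τ k ρ).le N (hμ ρ hρ) (h0 ρ hρ)
    have h2 := abs_nonneg (hh ρ N ^ 3 - greedy (hh ρ) (dl t τ k ρ) N ^ 3)
    show ((jset (hh ρ) (dl t τ k ρ) N).card : ℝ) * dl t τ k ρ ^ 3 ≤ 6 * Jj N (hh ρ) (μ ρ)
    unfold Jj
    linarith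

lemma bnd_nonneg {N R : ℕ} {t : ℝ} (ht : 0 < t) {hh μ : ℕ → ℕ → ℝ}
    (hμ : ∀ ρ ∈ range R, ∀ i ∈ range N, |hh ρ (i + 1) - hh ρ i| ≤ μ ρ i) :
    0 ≤ bnd N R t hh μ := by
  have hμ0 : ∀ ρ ∈ range R, ∀ i ∈ range N, 0 ≤ μ ρ i :=
    fun ρ hρ i hi => (abs_nonneg _).trans (hμ ρ hρ i hi)
  refine Finset.sum_nonneg fun ρ hρ => ?_
  have hV : 0 ≤ Vv N (μ ρ) := Finset.sum_nonneg fun i hi => hμ0 ρ hρ i hi
  have hJ : 0 ≤ Jj N (hh ρ) (μ ρ) :=
    Finset.sum_nonneg fun i hi => mul_nonneg (by positivity) (hμ0 ρ hρ i hi)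
  positivity

/-- Small counts at all levels from the count bound. -/
lemma count_consequences {B : ℝ} (hB0 : 0 ≤ B) {τ L : ℕ} {Nn : ℕ → ℕ}
    (hτ1 : 6 * (B + 1) ≤ 4 ^ τ)
    (hcount : ∑ k ∈ range (L + 1), (4 : ℝ) ^ τ / 4 ^ k * (Nn k : ℝ) ≤ B) :
    ∑ k ∈ range (L + 1), (Nn k : ℝ) / 4 ^ k ≤ 1 / 6 ∧ Nn 0 = 0 := by
  set W : ℝ := ∑ k ∈ range (L + 1), (Nn k : ℝ) / 4 ^ k with hW
  have hW0 : 0 ≤ W := Finset.sum_nonneg fun k _ => by positivity
  have h4τ : (0 : ℝ) < 4 ^ τ := by positivity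
  have hWB : 4 ^ τ * W ≤ B := by
    have e : (4 : ℝ) ^ τ * W = ∑ k ∈ range (L + 1), (4 : ℝ) ^ τ / 4 ^ k * (Nn k : ℝ) := by
      rw [hW, Finset.mul_sum]
      refine Finset.sum_congr rfl fun k _ => by ring
    rw [e]
    exact hcount
  constructor
  · have h1 : 6 * (B + 1) * W ≤ 4 ^ τ * W := mul_le_mul_of_nonneg_right hτ1 hW0
    have h2 : 6 * (B + 1) * W ≤ B := h1.trans hWB
    by_contra hcon
    push Not at hcon
    have h4 : 0 < 6 * W - 1 := by linarith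
    have h5 : 0 < (B + 1) * (6 * W - 1) := mul_pos (by linarith) h4
    nlinarith
  · have h1 : (4 : ℝ) ^ τ / 4 ^ 0 * (Nn 0 : ℝ)
        ≤ ∑ k ∈ range (L + 1), (4 : ℝ) ^ τ / 4 ^ k * (Nn k : ℝ) :=
      Finset.single_le_sum (f := fun k => (4 : ℝ) ^ τ / 4 ^ k * (Nn k : ℝ))
        (fun k _ => by positivity) (Finset.mem_range.mpr (Nat.succ_pos L))
    have h2 : (4 : ℝ) ^ τ * (Nn 0 : ℝ) ≤ B := by
      have := h1.trans hcount
      simpa using this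
    have h3 : (Nn 0 : ℝ) < 1 := by
      by_contra hcon
      push Not at hcon
      have : (4 : ℝ) ^ τ * 1 ≤ 4 ^ τ * (Nn 0 : ℝ) := mul_le_mul_of_nonneg_left hcon h4τ.le
      linarith
    have h4 : Nn 0 < 1 := by exact_mod_cast h3
    omega

lemma af_level_zero {N R : ℕ} {hh : ℕ → ℕ → ℝ} {t : ℝ} {τ : ℕ} (h : Nc N R hh t τ 0 = 0) (i : ℕ) :
    af N R hh t τ 0 i = 0 := by
  refine Finset.sum_eq_zero fun ρ hρ => ?_
  have hz : (jset (hh ρ) (dl t τ 0 ρ) N).card = 0 :=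
    (Finset.sum_eq_zero_iff (s := range R)
      (f := fun ρ => (jset (hh ρ) (dl t τ 0 ρ) N).card)).mp h ρ hρ
  exact greedy_eq_zero_of_card hz (min_le_right _ _)

theorem pairing_bound (N R : ℕ) {t : ℝ} (ht : 0 < t) (hh μ : ℕ → ℕ → ℝ)
    (h0 : ∀ ρ ∈ range R, hh ρ 0 = 0)
    (hμ : ∀ ρ ∈ range R, ∀ i ∈ range N, |hh ρ (i + 1) - hh ρ i| ≤ μ ρ i)
    (g : ℕ → ℝ) :
    |∑ i ∈ range N, (∑ ρ ∈ range R, hh ρ (i + 1)) * g i| ≤
      3 * t * √(6 * (bnd N R t hh μ + 1)) * xNorm N g := by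
  set B := bnd N R t hh μ with hB
  have hB0 : 0 ≤ B := bnd_nonneg ht hμ
  obtain ⟨n, hn1, hn2⟩ := exists_nat_pow_near (x := 6 * (B + 1)) (y := (4 : ℝ))
    (by linarith) (by norm_num)
  have hτ1 : 6 * (B + 1) ≤ 4 ^ (n + 1) := hn2.le
  have hτ2 : (4 : ℝ) ^ (n + 1) ≤ 24 * (B + 1) := by
    rw [pow_succ]
    linarith
  obtain ⟨L, hL⟩ := pow_unbounded_of_one_lt (6 * (N : ℝ)) (by norm_num : (1 : ℝ) < 4)
  have hc := Nc_count (L := L + 1) ht h0 hμ (n + 1)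
  obtain ⟨hW, hN0⟩ := count_consequences hB0 hτ1 hc
  obtain ⟨ψ, hψ, hid⟩ := assemble (N := N) (L := L) (H := Hf N R hh) (f := af N R hh t (n + 1))
    (D := Dl t (n + 1)) (Nn := Nc N R hh t (n + 1)) (T := Tc N R hh t (n + 1))
    (Dl_pos ht _) (Dl_succ t _) (af_approx ht h0 _) (af_zero N R hh t _) (Hf_zero h0)
    (fun _ _ hne => af_jump hne) (Tc_card N R hh t _) (af_beyond N R hh t _)
    (Hf_beyond N R hh) (af_level_zero hN0) hW hL
  have hD0 : Dl t (n + 1) 0 = t * 2 ^ (n + 1) := by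
    unfold Dl
    simp
  rw [hD0] at hid
  have hpair : ∑ i ∈ range N, (∑ ρ ∈ range R, hh ρ (i + 1)) * g i
      = (3 / 2 * (t * 2 ^ (n + 1))) * pair N ψ g := by
    unfold pair
    rw [Finset.mul_sum]
    refine Finset.sum_congr rfl fun i hi => ?_
    have hi' : i + 1 ≤ N := Finset.mem_range.mp hi
    have e : ∑ ρ ∈ range R, hh ρ (i + 1) = Hf N R hh (i + 1) := by
      refine Finset.sum_congr rfl fun ρ _ => ?_
      rw [min_eq_left hi']
    rw [e, hid]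
    ring
  rw [hpair, abs_mul, abs_of_pos (by positivity : 0 < 3 / 2 * (t * 2 ^ (n + 1)))]
  have hx := abs_pair_le_xNorm (N := N) hψ g
  have hroot : (2 : ℝ) ^ (n + 1) / 2 ≤ √(6 * (B + 1)) := by
    rw [Real.le_sqrt' (by positivity)]
    have : ((2 : ℝ) ^ (n + 1) / 2) ^ 2 = 4 ^ (n + 1) / 4 := by
      rw [four_pow]
      ring
    rw [this]
    linarith
  have hxn := xNorm_nonneg N g
  calc 3 / 2 * (t * 2 ^ (n + 1)) * |pair N ψ g| ≤ 3 / 2 * (t * 2 ^ (n + 1)) * xNorm N g :=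
        mul_le_mul_of_nonneg_left hx (by positivity)
    _ = 3 * t * (2 ^ (n + 1) / 2) * xNorm N g := by ring
    _ ≤ 3 * t * √(6 * (B + 1)) * xNorm N g := by
        refine mul_le_mul_of_nonneg_right ?_ hxn
        exact mul_le_mul_of_nonneg_left hroot (by positivity)

end Vale.Agent.Lib.P125B
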